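import Vale.Agent.P139.Ang.Sym

/-! P139 part Ang, file Boot (sub-lead helper37). Definitions in Ang/Def.lean and Def.lean. Helper lemma names start with ang_boot_.

Plan.
Coefficients: q is AngSb n (j ↦ j) for all n (smooth, symb; aa m >= 0), also deriv q with weight j + 1; normSq q = q * conj q (Complex.mul_conj); powers by induction with ang_sb_mul (constants: ang_sb_rpow with p = 0);
X = X^1, √X = X^(1/2) (Real.sqrt_eq_rpow). ang_boot_step: with W t j = min j ((j + t)/2), on Ioi 0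
deriv f = (-I) X⁻¹ (s - X f'' - 6 f' + (L/4) X⁻¹ f - κ f + a f + b g) σ⁻¹ where σ = ±1 is the sign in (6 + σ I X); every term is AngSb n (j ↦ W (t+1) (j+1)) by ang_sb_mul, ang_sb_deriv, ang_sb_mono
(elementary inequalities for min: le_min_iff, min_le_iff, push_cast with Nat.cast_sub, linarith); ang_sb_of_deriv (W _ 0 = 0 as t >= 0). ang_boot: induction on t <= 10 with n = 20 - t.
-/

noncomputable section

open MeasureTheory Filter Topology Set Complex
open scoped ComplexConjugate ContDiff RealInnerProductSpace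

namespace Vale.Agent.P139

variable {m : ℕ} (Q : Prof m)

theorem ang_boot_q (n : ℕ) : AngSb n (fun j => j) Q.q := by
  obtain ⟨δ, hδ, hs⟩ := Q.smooth
  refine ⟨(hs.mono (Ioi_subset_Ioi (by linarith))).of_le (by exact_mod_cast le_top), fun j _ => ?_⟩
  obtain ⟨C, hC⟩ := Q.symb j
  refine ⟨|C|, fun X hX => (hC X hX).trans ?_⟩
  have ha : 0 ≤ aa m := by unfold aa; positivity
  exact mul_le_mul (le_abs_self C) (Real.rpow_le_rpow_of_exponent_le hX (by linarith))
    (by positivity) (abs_nonneg C)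

theorem ang_boot_mul {n : ℕ} {u v : ℝ → ℂ} (h : AngSb n (fun j => j) u)
    (h' : AngSb n (fun j => j) v) : AngSb n (fun j => j) (fun X => u X * v X) :=
  ang_sb_mul h h' fun j _ i hi => by rw [Nat.cast_sub hi]; linarith

theorem ang_boot_one (n : ℕ) : AngSb n (fun j => j) (fun _ => 1) :=
  ang_sb_congr (ang_sb_mono (ang_sb_rpow n 0) le_rfl fun j _ => by simp) fun X _ => by simp

theorem ang_boot_pow {n : ℕ} {u : ℝ → ℂ} (h : AngSb n (fun j => j) u) (k : ℕ) :
    AngSb n (fun j => j) (fun X => u X ^ k) := by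
  induction k with
  | zero => simpa using ang_boot_one n
  | succ k ih => simpa [pow_succ] using ang_boot_mul ih h

theorem ang_boot_nsq (n : ℕ) : AngSb n (fun j => j) (fun X => (normSq (Q.q X) : ℂ)) :=
  ang_sb_congr (ang_boot_mul (ang_boot_q Q n) (ang_sb_conj (ang_boot_q Q n))) fun X _ =>
    (Complex.mul_conj _).symm

theorem ang_sb_V1 (n : ℕ) : AngSb n (fun j => j) Q.V1 :=
  ang_sb_congr (ang_sb_const_mul (m + 1) (ang_boot_pow (ang_boot_nsq Q n) m)) fun X _ => by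
    simp [Prof.V1, Prof.P]

theorem ang_sb_V2 (n : ℕ) : AngSb n (fun j => j) Q.V2 :=
  ang_sb_congr (ang_boot_mul (ang_sb_const_mul m (ang_boot_pow (ang_boot_nsq Q n) (m - 1)))
    (ang_boot_pow (ang_boot_q Q n) 2)) fun X _ => rfl

theorem ang_sb_eP (n : ℕ) : AngSb n (fun j => j) Q.eP := ang_sb_const_mul I (ang_boot_q Q n)

theorem ang_boot_Xq (n : ℕ) {p : ℝ} (hp : p ≤ 1) :
    AngSb n (fun j => j) (fun X => ((X ^ p : ℝ) : ℂ) * deriv Q.q X) :=
  ang_sb_mul (ang_sb_rpow n p) (ang_sb_deriv (ang_boot_q Q (n + 1))) fun j _ i hi => by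
    push_cast [Nat.cast_sub hi]; linarith

theorem ang_sb_eT (n : ℕ) : AngSb n (fun j => j) Q.eT :=
  ang_sb_congr (ang_sb_add (ang_boot_Xq Q n le_rfl) (ang_sb_const_mul (nu0 m Q.β) (ang_boot_q Q n)))
    fun X _ => by simp [Prof.eT]

theorem ang_sb_eX (n : ℕ) : AngSb n (fun j => j) Q.eX :=
  ang_sb_congr (ang_boot_Xq Q n (p := 1 / 2) (by norm_num)) fun X _ => by
    rw [Prof.eX, Real.sqrt_eq_rpow]

theorem ang_boot_inv {n : ℕ} {t : ℝ} {u : ℝ → ℂ}
    (hu : AngSb n (fun j => min (j : ℝ) ((j + t) / 2)) u) :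
    AngSb n (fun j => min ((j + 1 : ℕ) : ℝ) (((j + 1 : ℕ) + (t + 1)) / 2))
      (fun X => ((X ^ (-1 : ℝ) : ℝ) : ℂ) * u X) :=
  ang_sb_mul (ang_sb_rpow n (-1)) hu fun j _ i hi => by
    have : (0 : ℝ) ≤ i := Nat.cast_nonneg i
    push_cast [Nat.cast_sub hi]
    rw [← sub_le_iff_le_add', le_min_iff]
    constructor
    · linarith [min_le_left ((j : ℝ) + 1) ((j + 1 + (t + 1)) / 2)]
    · linarith [min_le_right ((j : ℝ) + 1) ((j + 1 + (t + 1)) / 2)]

theorem ang_boot_co {n : ℕ} {t : ℝ} {a u : ℝ → ℂ} (ha : AngSb n (fun j => j) a)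
    (hu : AngSb n (fun j => min (j : ℝ) ((j + t) / 2)) u) :
    AngSb n (fun j => min (j : ℝ) ((j + t) / 2)) (fun X => a X * u X) :=
  ang_sb_mul ha hu fun j _ i hi => by
    have : (0 : ℝ) ≤ i := Nat.cast_nonneg i
    push_cast [Nat.cast_sub hi]
    rw [← sub_le_iff_le_add', le_min_iff]
    constructor
    · linarith [min_le_left (j : ℝ) ((j + t) / 2)]
    · linarith [min_le_right (j : ℝ) ((j + t) / 2)]

theorem ang_boot_step {n : ℕ} {t : ℝ} (ht : 0 ≤ t) {f g a b s : ℝ → ℂ} {σ L κ : ℂ} (hσ : σ ≠ 0)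
    (hf : AngSb (n + 2) (fun j => min (j : ℝ) ((j + t) / 2)) f)
    (hg : AngSb (n + 2) (fun j => min (j : ℝ) ((j + t) / 2)) g)
    (ha : AngSb n (fun j => j) a) (hb : AngSb n (fun j => j) b) (hs : AngSb n (fun j => j) s)
    (hode : ∀ X : ℝ, 0 < X → X * deriv (deriv f) X + (6 + σ * X) * deriv f X -
      L / (4 * X) * f X + κ * f X - a X * f X - b X * g X = s X) :
    AngSb (n + 1) (fun j => min (j : ℝ) ((j + (t + 1)) / 2)) f := by
  have f0 : AngSb n (fun j => min (j : ℝ) ((j + t) / 2)) f :=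
    ang_sb_mono hf (by omega) fun _ _ => le_rfl
  have g0 : AngSb n (fun j => min (j : ℝ) ((j + t) / 2)) g :=
    ang_sb_mono hg (by omega) fun _ _ => le_rfl
  have f1 : AngSb n (fun j => min (j : ℝ) ((j + t) / 2)) (deriv f) :=
    ang_sb_mono (ang_sb_deriv hf) (by omega) fun j _ =>
      min_le_min (by push_cast; linarith) (by push_cast; linarith)
  have f2 : AngSb n (fun j => min ((j + 1 : ℕ) : ℝ) (((j + 1 : ℕ) + (t + 1)) / 2))
      (deriv (deriv f)) :=
    ang_sb_mono (ang_sb_deriv (ang_sb_deriv hf)) le_rfl fun j _ =>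
      min_le_min (by push_cast; linarith) (by push_cast; linarith)
  have s0 : AngSb n (fun j => min (j : ℝ) ((j + t) / 2)) s :=
    ang_sb_mono hs le_rfl fun j _ => min_le_left _ _
  have i0 : AngSb n (fun j => j) (fun X => ((X ^ (-1 : ℝ) : ℝ) : ℂ)) :=
    ang_sb_mono (ang_sb_rpow n (-1)) le_rfl fun j _ => by linarith
  have T := ang_sb_add (ang_sb_add (ang_sb_add (ang_sb_add (ang_sb_add s0
    (ang_sb_const_mul (-6) f1)) (ang_sb_const_mul (L / 4) (ang_boot_co i0 f0)))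
    (ang_sb_const_mul (-κ) f0)) (ang_boot_co ha f0)) (ang_boot_co hb g0)
  have T2 := ang_sb_const_mul σ⁻¹ (ang_sb_add (ang_boot_inv T) (ang_sb_const_mul (-1) f2))
  refine ang_sb_of_deriv (hf.1.differentiableOn (by simp)) ?_ (ang_sb_congr T2 fun X hX => ?_)
  · obtain ⟨C, hC⟩ := hf.2 0 (by omega)
    refine ⟨C, fun X hX => ?_⟩
    have e1 : min ((0 : ℕ) : ℝ) (((0 : ℕ) + t) / 2) = 0 := by
      rw [Nat.cast_zero]; exact min_eq_left (by linarith)
    have e2 : min ((0 : ℕ) : ℝ) (((0 : ℕ) + (t + 1)) / 2) = 0 := by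
      rw [Nat.cast_zero]; exact min_eq_left (by linarith)
    have := hC X hX
    simp only [e1, iteratedDeriv_zero] at this
    simp only [e2]
    exact this
  · have hX' : (X : ℂ) ≠ 0 := ofReal_ne_zero.2 hX.ne'
    rw [← hode X hX, Real.rpow_neg_one, ofReal_inv]
    field_simp
    ring

theorem ang_boot {f g a b a' b' s s' : ℝ → ℂ} {σ σ' L κ κ' : ℂ} (hσ : σ ≠ 0) (hσ' : σ' ≠ 0)
    (hf : AngSb 20 (fun j => j / 2) f) (hg : AngSb 20 (fun j => j / 2) g)
    (ha : ∀ n, AngSb n (fun j => j) a) (hb : ∀ n, AngSb n (fun j => j) b)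
    (hs : ∀ n, AngSb n (fun j => j) s) (ha' : ∀ n, AngSb n (fun j => j) a')
    (hb' : ∀ n, AngSb n (fun j => j) b') (hs' : ∀ n, AngSb n (fun j => j) s')
    (hode : ∀ X : ℝ, 0 < X → X * deriv (deriv f) X + (6 + σ * X) * deriv f X -
      L / (4 * X) * f X + κ * f X - a X * f X - b X * g X = s X)
    (hode' : ∀ X : ℝ, 0 < X → X * deriv (deriv g) X + (6 + σ' * X) * deriv g X -
      L / (4 * X) * g X + κ' * g X - a' X * g X - b' X * f X = s' X) :
    AngSb 10 (fun j => j) f ∧ AngSb 10 (fun j => j) g := by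
  have key : ∀ t : ℕ, t ≤ 10 → AngSb (20 - t) (fun j => min (j : ℝ) ((j + (t : ℝ)) / 2)) f ∧
      AngSb (20 - t) (fun j => min (j : ℝ) ((j + (t : ℝ)) / 2)) g := by
    intro t
    induction t with
    | zero =>
      intro _
      exact ⟨ang_sb_mono hf le_rfl fun j _ => (min_le_right _ _).trans (by simp),
        ang_sb_mono hg le_rfl fun j _ => (min_le_right _ _).trans (by simp)⟩
    | succ t ih =>
      intro ht
      obtain ⟨h1, h2⟩ := ih (by omega)
      rw [show 20 - t = 18 - t + 2 by omega] at h1 h2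
      rw [show 20 - (t + 1) = 18 - t + 1 by omega, Nat.cast_succ]
      exact ⟨ang_boot_step (Nat.cast_nonneg t) hσ h1 h2 (ha _) (hb _) (hs _) hode,
        ang_boot_step (Nat.cast_nonneg t) hσ' h2 h1 (ha' _) (hb' _) (hs' _) hode'⟩
  obtain ⟨h1, h2⟩ := key 10 le_rfl
  have e : ∀ j : ℕ, j ≤ 10 → (j : ℝ) ≤ min (j : ℝ) ((j + ((10 : ℕ) : ℝ)) / 2) := fun j hj => by
    have : (j : ℝ) ≤ 10 := by exact_mod_cast hj
    exact le_min le_rfl (by push_cast; linarith)
  exact ⟨ang_sb_mono h1 le_rfl e, ang_sb_mono h2 le_rfl e⟩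

end Vale.Agent.P139
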