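import Vale.Agent.P139.Ang.Orth

/-! P139 part Ang, file Chg (sub-lead helper37). Definitions in Ang/Def.lean and Def.lean. Helper lemma names start with ang_chg_.

Plan.
With φ = angPr h F (C2) and r = 2 √X > 0: deriv (angR h F) X = φ' r / √X on Ioi 0 (HasDerivAt.scomp / comp_ofReal style chain rule with Real.hasDerivAt_sqrt), hence
X * deriv (deriv (angR h F)) X = φ'' r - φ' r / r (Filter.EventuallyEq.deriv_eq on Ioi 0), r^2 = 4X. Project the equation on h at radius r: linearity of angPr (integral_add, integral_sub, ang_integrable;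
ang_lap_continuous; the radial factors a (XX y), b (XX y) are constant on the sphere: ang_pr_radial or ang_XX_smul inside the integral), ang_pr_lap, ang_pr_euler; field_simp.
-/

noncomputable section

open MeasureTheory Filter Topology Set Complex
open scoped ComplexConjugate ContDiff RealInnerProductSpace

namespace Vale.Agent.P139

theorem ang_chg_sqrt {X : ℝ} (hX : 0 < X) : HasDerivAt (fun Y => 2 * √Y) (√X)⁻¹ X := by
  have h := (Real.hasDerivAt_sqrt hX.ne').const_mul 2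
  have hs : √X ≠ 0 := (Real.sqrt_pos.2 hX).ne'
  have e : 2 * (1 / (2 * √X)) = (√X)⁻¹ := by field_simp
  rwa [e] at h

theorem ang_chg_comp {φ : ℝ → ℂ} (hφ : Differentiable ℝ φ) {X : ℝ} (hX : 0 < X) :
    HasDerivAt (fun Y => φ (2 * √Y)) (((√X : ℝ) : ℂ)⁻¹ * deriv φ (2 * √X)) X := by
  have h := (hφ (2 * √X)).hasDerivAt.scomp X (ang_chg_sqrt hX)
  rw [Complex.real_smul, ofReal_inv] at h
  exact h

theorem ang_R_deriv {h : E12 → ℝ} (hh : Continuous h) {F : E12 → ℂ} (hF : ContDiff ℝ 1 F) {X : ℝ}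
    (hX : 0 < X) : ((√X : ℝ) : ℂ) * deriv (angR h F) X = deriv (angPr h F) (2 * √X) := by
  have hs : ((√X : ℝ) : ℂ) ≠ 0 := ofReal_ne_zero.2 (Real.sqrt_pos.2 hX).ne'
  have h1 := ang_chg_comp (fun r => (ang_pr_hasDerivAt hh hF r).differentiableAt) hX
  have e : deriv (angR h F) X = _ := h1.deriv
  rw [e, mul_inv_cancel_left₀ hs]

theorem ang_chg_two {φ : ℝ → ℂ} (hφ : ContDiff ℝ 2 φ) {X : ℝ} (hX : 0 < X) :
    X * deriv (deriv (fun Y => φ (2 * √Y))) X =
      deriv (deriv φ) (2 * √X) - deriv φ (2 * √X) / (2 * (√X : ℝ)) := by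
  have hs0 : √X ≠ 0 := (Real.sqrt_pos.2 hX).ne'
  have hs : ((√X : ℝ) : ℂ) ≠ 0 := ofReal_ne_zero.2 hs0
  have e : deriv (fun Y => φ (2 * √Y)) =ᶠ[𝓝 X]
      fun Y => ((√Y : ℝ) : ℂ)⁻¹ * deriv φ (2 * √Y) := by
    filter_upwards [Ioi_mem_nhds hX] with Y hY
    exact (ang_chg_comp (hφ.differentiable two_ne_zero) hY).deriv
  have h1 := ang_chg_comp ((hφ.deriv' (n := 1)).differentiable one_ne_zero) hX
  have h2 : HasDerivAt (fun Y : ℝ => ((√Y : ℝ) : ℂ)) ((1 / (2 * √X) : ℝ) : ℂ) X :=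
    (Real.hasDerivAt_sqrt hX.ne').ofReal_comp
  have h3 := ((h2.fun_inv hs).fun_mul h1).deriv
  rw [e.deriv_eq, h3]
  have hsq : (X : ℂ) = ((√X : ℝ) : ℂ) ^ 2 := by
    rw [← ofReal_pow, Real.sq_sqrt hX.le]
  push_cast
  generalize ((√X : ℝ) : ℂ) = s at hs hsq
  rw [hsq]
  field_simp
  ring

theorem ang_R_ode {l : ℕ} {h : E12 → ℝ} (hh : AngH l h) {F G S : E12 → ℂ} (hF : ContDiff ℝ 2 F)
    (hG : Continuous G) {σ κ : ℂ} {a b : ℝ → ℂ}
    (heq : ∀ y, Laplacian.laplacian F y + σ / 2 * fderiv ℝ F y y + κ * F y -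
      a (XX y) * F y - b (XX y) * G y = S y) {X : ℝ} (hX : 0 < X) :
    X * deriv (deriv (angR h F)) X + (6 + σ * X) * deriv (angR h F) X -
      l * (l + 10) / (4 * X) * angR h F X + κ * angR h F X - a X * angR h F X -
        b X * angR h G X = angR h S X := by
  have hc := hh.smooth.continuous
  have hF1 : ContDiff ℝ 1 F := hF.of_le one_le_two
  have hs0 : 0 < √X := Real.sqrt_pos.2 hX
  have hs : ((√X : ℝ) : ℂ) ≠ 0 := ofReal_ne_zero.2 hs0.ne'
  have hr : (2 * √X) ^ 2 / 4 = X := by rw [mul_pow, Real.sq_sqrt hX.le]; ring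
  have hφ : ContDiff ℝ 2 (angPr h F) := by
    have : ContDiff ℝ (2 : ℕ) (angPr h F) := ang_pr_contDiff hc (by exact_mod_cast hF)
    exact_mod_cast this
  have e1 : X * deriv (deriv (angR h F)) X = _ := ang_chg_two hφ hX
  have e2 := ang_R_deriv hc hF1 hX
  have e3 := ang_pr_lap hh hF (r := 2 * √X) (by positivity)
  have e4 := ang_pr_euler hc hF1 (2 * √X)
  have e5 : angR h S X = angPr h (Laplacian.laplacian F) (2 * √X) +
      σ / 2 * angPr h (fun y => fderiv ℝ F y y) (2 * √X) + κ * angPr h F (2 * √X) -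
      a X * angPr h F (2 * √X) - b X * angPr h G (2 * √X) := by
    have c0 := hF.continuous
    have c1 := hF1.continuous_fderiv one_ne_zero
    have c2 := ang_lap_continuous hF
    unfold angR angPr
    rw [← integral_const_mul, ← integral_const_mul, ← integral_const_mul, ← integral_const_mul,
      ← integral_add, ← integral_add, ← integral_sub, ← integral_sub]
    · refine integral_congr_ae (Eventually.of_forall fun θ => ?_)
      simp only
      rw [← heq, ang_XX_smul, hr]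
      ring
    all_goals exact ang_integrable (by fun_prop)
  have hsq : (X : ℂ) = ((√X : ℝ) : ℂ) ^ 2 := by
    rw [← ofReal_pow, Real.sq_sqrt hX.le]
  have e6 : deriv (angR h F) X = deriv (angPr h F) (2 * √X) / ((√X : ℝ) : ℂ) := by
    rw [← e2, mul_div_cancel_left₀ _ hs]
  have e7 : angPr h (Laplacian.laplacian F) (2 * √X) = (((2 * √X : ℝ) : ℂ) ^ 2 *
      deriv (deriv (angPr h F)) (2 * √X) + 11 * (2 * √X : ℝ) * deriv (angPr h F) (2 * √X) -
        l * (l + 10) * angPr h F (2 * √X)) / ((2 * √X : ℝ) : ℂ) ^ 2 := by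
    rw [← e3, mul_div_cancel_left₀]
    exact pow_ne_zero _ (ofReal_ne_zero.2 (by positivity))
  rw [e5, e1, e4, e6, e7]
  unfold angR
  push_cast
  generalize ((√X : ℝ) : ℂ) = s at hs hsq
  rw [hsq]
  field_simp
  ring

end Vale.Agent.P139
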