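import Vale.Agent.P139.Ang.Def

/-! P139 part Ang, file Reg (sub-lead helper37). Definitions in Ang/Def.lean and Def.lean. Helper lemma names start with ang_reg_.

Plan.
angσ is finite (instance for toSphere; unfold angσ). Continuous functions on the compact sphere are integrable (Continuous.integrable_of_hasCompactSupport with HasCompactSupport.of_compactSpace, or
BoundedContinuousFunction). Put P j r = ∫ θ, iteratedFDeriv ℝ j F (r • θ) (fun _ => θ) * h θ. For j < n, HasDerivAt (P j) (P (j+1) r) r by hasDerivAt_integral_of_dominated_loc_of_deriv_le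
(the derivative is jointly continuous in (r,θ), hence bounded on closedBall r 1 ×ˢ univ; pointwise: iteratedFDeriv_succ_apply_left and the chain rule for s ↦ s • θ), P n is continuous
(continuous_parametric_integral_of_continuous or continuous_of_dominated locally). So iteratedDeriv j (angPr h F) = P j by induction (iteratedDeriv_succ) and contDiff_iff_continuous_differentiable
(or contDiff_of_differentiable_iteratedDeriv, contDiff_nat_succ_iff). Bound: ContinuousMultilinearMap.le_opNorm with unit vectors.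
-/

noncomputable section

open MeasureTheory Filter Topology Set Complex
open scoped ComplexConjugate ContDiff RealInnerProductSpace

namespace Vale.Agent.P139

instance ang_finite : IsFiniteMeasure angσ := by
  unfold angσ; infer_instance

theorem ang_integrable {G : Type} [NormedAddCommGroup G] {Φ : AngS → G} (h : Continuous Φ) :
    Integrable Φ angσ :=
  h.integrable_of_hasCompactSupport (HasCompactSupport.of_compactSpace _)

theorem ang_reg_cont {K : ℝ → AngS → ℂ} (hK : Continuous K.uncurry) :
    Continuous fun r => ∫ θ, K r θ ∂angσ := by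
  simpa using continuous_parametric_integral_of_continuous (μ := angσ) hK isCompact_univ

theorem ang_reg_deriv {K K' : ℝ → AngS → ℂ} (hK : Continuous K.uncurry)
    (hK' : Continuous K'.uncurry) (hd : ∀ θ r, HasDerivAt (K · θ) (K' r θ) r) (r : ℝ) :
    HasDerivAt (fun r => ∫ θ, K r θ ∂angσ) (∫ θ, K' r θ ∂angσ) r := by
  have c1 : ∀ x, Continuous (K x) := fun x => hK.comp (Continuous.prodMk_right x)
  have c2 : ∀ x, Continuous (K' x) := fun x => hK'.comp (Continuous.prodMk_right x)
  obtain ⟨M, hM⟩ := ((isCompact_closedBall r 1).prod isCompact_univ).exists_bound_of_continuousOn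
    hK'.continuousOn
  exact (hasDerivAt_integral_of_dominated_loc_of_deriv_le (μ := angσ) (bound := fun _ => M)
    (Metric.closedBall_mem_nhds r one_pos)
    (Eventually.of_forall fun x => (c1 x).aestronglyMeasurable) (ang_integrable (c1 r))
    (c2 r).aestronglyMeasurable
    (Eventually.of_forall fun θ x hx => hM (x, θ) ⟨hx, mem_univ _⟩) (integrable_const M)
    (Eventually.of_forall fun θ x _ => hd θ x)).2

theorem ang_pr_continuous {h : E12 → ℝ} (hh : Continuous h) {F : E12 → ℂ} (hF : Continuous F) :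
    Continuous (angPr h F) :=
  ang_reg_cont (K := fun r θ => F (r • (θ : E12)) * (h θ : ℂ)) (by
    unfold Function.uncurry; fun_prop)

theorem ang_reg_line {W : Type} [NormedAddCommGroup W] [NormedSpace ℝ W] {F : E12 → W}
    (hF : Differentiable ℝ F) (v : E12) (r : ℝ) :
    HasDerivAt (fun s : ℝ => F (s • v)) (fderiv ℝ F (r • v) v) r := by
  have h := (hF (r • v)).hasFDerivAt.comp_hasDerivAt r ((hasDerivAt_id r).smul_const v)
  simpa [Function.comp_def] using h

theorem ang_pr_hasDerivAt {h : E12 → ℝ} (hh : Continuous h) {F : E12 → ℂ} (hF : ContDiff ℝ 1 F)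
    (r : ℝ) :
    HasDerivAt (angPr h F) (∫ θ : AngS, fderiv ℝ F (r • (θ : E12)) θ * (h θ : ℂ) ∂angσ) r := by
  have h0 := hF.continuous
  have h1 := hF.continuous_fderiv one_ne_zero
  exact ang_reg_deriv (K := fun r θ => F (r • (θ : E12)) * (h θ : ℂ))
    (K' := fun r θ => fderiv ℝ F (r • (θ : E12)) θ * (h θ : ℂ))
    (by unfold Function.uncurry; fun_prop) (by unfold Function.uncurry; fun_prop)
    (fun θ r => (ang_reg_line (hF.differentiable one_ne_zero) θ r).mul_const _) r

/-- The projected iterated radial derivative. -/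
def angRegP (h : E12 → ℝ) (F : E12 → ℂ) (j : ℕ) (r : ℝ) : ℂ :=
  ∫ θ : AngS, iteratedFDeriv ℝ j F (r • (θ : E12)) (fun _ => (θ : E12)) * (h θ : ℂ) ∂angσ

theorem ang_reg_jc {h : E12 → ℝ} (hh : Continuous h) {n : ℕ} {F : E12 → ℂ} (hF : ContDiff ℝ n F)
    {j : ℕ} (hj : j ≤ n) : Continuous (Function.uncurry fun (r : ℝ) (θ : AngS) =>
      iteratedFDeriv ℝ j F (r • (θ : E12)) (fun _ => (θ : E12)) * (h θ : ℂ)) := by
  have h1 := hF.continuous_iteratedFDeriv (m := j) (by exact_mod_cast hj)
  unfold Function.uncurry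
  refine Continuous.mul ?_ (by fun_prop)
  exact continuous_eval.comp ((h1.comp (by fun_prop)).prodMk (by fun_prop))

theorem ang_reg_P_deriv {h : E12 → ℝ} (hh : Continuous h) {n : ℕ} {F : E12 → ℂ}
    (hF : ContDiff ℝ n F) {j : ℕ} (hj : j < n) (r : ℝ) :
    HasDerivAt (angRegP h F j) (angRegP h F (j + 1) r) r := by
  refine ang_reg_deriv (ang_reg_jc hh hF hj.le) (ang_reg_jc hh hF hj) (fun θ r => ?_) r
  refine HasDerivAt.mul_const ?_ _
  have h1 := ang_reg_line (hF.differentiable_iteratedFDeriv (m := j) (by exact_mod_cast hj))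
    (θ : E12) r
  exact (ContinuousMultilinearMap.apply ℝ (fun _ : Fin j => E12) ℂ
    (fun _ => (θ : E12))).hasFDerivAt.comp_hasDerivAt r h1

theorem ang_reg_iter {h : E12 → ℝ} (hh : Continuous h) {n : ℕ} {F : E12 → ℂ}
    (hF : ContDiff ℝ n F) {j : ℕ} (hj : j ≤ n) : iteratedDeriv j (angPr h F) = angRegP h F j := by
  induction j with
  | zero => funext r; simp [angRegP, angPr]
  | succ j ih =>
    funext r
    rw [iteratedDeriv_succ, ih (by omega)]
    exact (ang_reg_P_deriv hh hF hj r).deriv

theorem ang_pr_contDiff {h : E12 → ℝ} (hh : Continuous h) {n : ℕ} {F : E12 → ℂ}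
    (hF : ContDiff ℝ n F) : ContDiff ℝ n (angPr h F) := by
  refine contDiff_nat_iff_iteratedDeriv.2 ⟨fun j hj => ?_, fun j hj => ?_⟩
  · rw [ang_reg_iter hh hF hj]
    exact ang_reg_cont (ang_reg_jc hh hF hj)
  · rw [ang_reg_iter hh hF hj.le]
    exact fun r => (ang_reg_P_deriv hh hF hj r).differentiableAt

theorem ang_pr_bound {h : E12 → ℝ} (hh : Continuous h) {n : ℕ} {F : E12 → ℂ} (hF : ContDiff ℝ n F)
    {j : ℕ} (hj : j ≤ n) {C : ℝ} (hC : ∀ y, ‖iteratedFDeriv ℝ j F y‖ ≤ C) :
    ∃ C' : ℝ, ∀ r, ‖iteratedDeriv j (angPr h F) r‖ ≤ C' := by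
  refine ⟨∫ θ : AngS, C * ‖h θ‖ ∂angσ, fun r => ?_⟩
  rw [ang_reg_iter hh hF hj]
  refine norm_integral_le_of_norm_le (ang_integrable (by fun_prop)) (Eventually.of_forall fun θ => ?_)
  rw [norm_mul, Complex.norm_real]
  refine mul_le_mul_of_nonneg_right ?_ (norm_nonneg _)
  refine (ContinuousMultilinearMap.le_opNorm _ _).trans ?_
  simpa using hC _

end Vale.Agent.P139
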