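import Vale.Agent.P139.Ang.Poly
import Vale.Agent.P139.Ang.Reg

/-! P139 part Ang, file Comp (sub-lead helper37). Definitions in Ang/Def.lean and Def.lean. Helper lemma names start with ang_comp_.

Plan.
angEv angR2 θ = 1 on the sphere (EuclideanSpace.real_norm_sq_eq). By ang_decomp and span induction ∫ Φ * angEv p = 0 for homogeneous p, hence for all p (MvPolynomial.sum_homogeneousComponent,
homogeneousComponent_isHomogeneous). The range of the algebra map p ↦ (θ ↦ angEv p θ) into C(AngS, ℝ) (MvPolynomial.aeval of the coordinate functions, AlgHom.range) separates points;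
ContinuousMap.exists_mem_subalgebra_near_continuous_of_separatesPoints (Stone-Weierstrass) gives ∫ Φ * u = 0 for all continuous real u. Take u = re Φ and u = im Φ: ∫ normSq Φ = 0;
Continuous.integral_pos_of_hasCompactSupport_nonneg_nonzero or integral_eq_zero_iff_of_nonneg with Continuous.ae_eq_iff_eq (toSphere is IsOpenPosMeasure).
-/

noncomputable section

open MeasureTheory Filter Topology Set Complex
open scoped ComplexConjugate ContDiff RealInnerProductSpace

namespace Vale.Agent.P139

theorem ang_comp_R (θ : AngS) : angEv angR2 θ = 1 := by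
  have h : ‖(θ : E12)‖ = 1 := by simp
  have h2 := EuclideanSpace.real_norm_sq_eq (θ : E12)
  rw [h] at h2
  simp only [angEv, angR2, map_sum, map_pow, MvPolynomial.eval_X]
  rw [← h2]; norm_num

theorem ang_comp_int {Φ : AngS → ℂ} (hΦ : Continuous Φ) {u : AngS → ℝ} (hu : Continuous u) :
    Integrable (fun θ => Φ θ * (u θ : ℂ)) angσ :=
  ang_integrable (hΦ.mul (continuous_ofReal.comp hu))

theorem ang_comp_poly {Φ : AngS → ℂ} (hΦ : Continuous Φ)
    (h : ∀ (l : ℕ) (p : MvPolynomial (Fin 12) ℝ), p.IsHomogeneous l → angLap p = 0 →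
      ∫ θ : AngS, Φ θ * (angEv p θ : ℂ) ∂angσ = 0) (p : MvPolynomial (Fin 12) ℝ) :
    ∫ θ : AngS, Φ θ * (angEv p θ : ℂ) ∂angσ = 0 := by
  have hc : ∀ q : MvPolynomial (Fin 12) ℝ, Continuous fun θ : AngS => angEv q θ := fun q =>
    (ang_ev_contDiff q).continuous.comp continuous_subtype_val
  let S : Submodule ℝ (MvPolynomial (Fin 12) ℝ) :=
    { carrier := {q | ∫ θ : AngS, Φ θ * (angEv q θ : ℂ) ∂angσ = 0}
      zero_mem' := by simp [angEv]
      add_mem' := by
        intro a b ha hb
        have e : ∀ θ : AngS, Φ θ * (angEv (a + b) θ : ℂ) =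
            Φ θ * (angEv a θ : ℂ) + Φ θ * (angEv b θ : ℂ) := fun θ => by
          simp [angEv, mul_add]
        simp only [mem_setOf_eq, e] at ha hb ⊢
        rw [integral_add (ang_comp_int hΦ (hc a)) (ang_comp_int hΦ (hc b)), ha, hb, add_zero]
      smul_mem' := by
        intro c a ha
        have e : ∀ θ : AngS, Φ θ * (angEv (c • a) θ : ℂ) =
            (c : ℂ) * (Φ θ * (angEv a θ : ℂ)) := fun θ => by
          simp only [angEv, MvPolynomial.smul_eval]; push_cast; ring
        simp only [mem_setOf_eq, e] at ha ⊢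
        rw [integral_const_mul, ha, mul_zero] }
  have hh : ∀ (n : ℕ) (q : MvPolynomial (Fin 12) ℝ), q.IsHomogeneous n → q ∈ S := by
    intro n q hq
    refine (Submodule.span_le.2 ?_) (ang_decomp n q hq)
    rintro _ ⟨k, l, g, -, hg, h0, rfl⟩
    have e : ∀ θ : AngS, angEv (angR2 ^ k * g) θ = angEv g θ := fun θ => by
      have := ang_comp_R θ
      simp only [angEv, map_mul, map_pow] at this ⊢
      rw [this]; simp
    change ∫ θ : AngS, Φ θ * (angEv (angR2 ^ k * g) θ : ℂ) ∂angσ = 0
    simp only [e]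
    exact h l g hg h0
  change p ∈ S
  rw [← MvPolynomial.sum_homogeneousComponent p]
  exact S.sum_mem fun n _ => hh n _ (MvPolynomial.homogeneousComponent_isHomogeneous n p)

/-- The coordinate functions on the sphere. -/
def angCompX (j : Fin 12) : C(AngS, ℝ) := ⟨fun θ => (θ : E12) j, by fun_prop⟩

theorem ang_comp_aeval (p : MvPolynomial (Fin 12) ℝ) (θ : AngS) :
    (MvPolynomial.aeval angCompX p : C(AngS, ℝ)) θ = angEv p θ := by
  induction p using MvPolynomial.induction_on with
  | C a => simp [angEv]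
  | add p q hp hq => rw [map_add, ContinuousMap.add_apply, hp, hq]; simp [angEv]
  | mul_X p i hp => rw [map_mul, ContinuousMap.mul_apply, hp]; simp [angEv, angCompX]

theorem ang_comp_sep :
    (MvPolynomial.aeval (R := ℝ) angCompX).range.SeparatesPoints := by
  intro x y hxy
  have : ∃ j, (x : E12) j ≠ (y : E12) j := by
    by_contra hc
    push Not at hc
    exact hxy (Subtype.ext (PiLp.ext hc))
  obtain ⟨j, hj⟩ := this
  exact ⟨angCompX j, ⟨angCompX j, ⟨MvPolynomial.X j, by simp⟩, rfl⟩, hj⟩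

theorem ang_comp_cont {Φ : AngS → ℂ} (hΦ : Continuous Φ)
    (h : ∀ p : MvPolynomial (Fin 12) ℝ, ∫ θ : AngS, Φ θ * (angEv p θ : ℂ) ∂angσ = 0)
    {u : AngS → ℝ} (hu : Continuous u) : ∫ θ : AngS, Φ θ * (u θ : ℂ) ∂angσ = 0 := by
  set M := ∫ θ : AngS, ‖Φ θ‖ ∂angσ with hM
  have hM0 : 0 ≤ M := integral_nonneg fun _ => norm_nonneg _
  refine norm_le_zero_iff.1 (le_of_forall_pos_le_add fun ε hε => ?_)
  obtain ⟨⟨g, p, rfl⟩, hg⟩ := ContinuousMap.exists_mem_subalgebra_near_continuous_of_separatesPoints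
    _ ang_comp_sep u hu (ε / (M + 1)) (by positivity)
  have hg' : ∀ θ : AngS, ‖angEv p θ - u θ‖ < ε / (M + 1) := fun θ => by
    rw [← ang_comp_aeval]; exact hg θ
  have hc : Continuous fun θ : AngS => angEv p θ :=
    (ang_ev_contDiff p).continuous.comp continuous_subtype_val
  have e : ∫ θ : AngS, Φ θ * (u θ : ℂ) ∂angσ =
      -∫ θ : AngS, Φ θ * ((angEv p θ - u θ : ℝ) : ℂ) ∂angσ := by
    simp only [ofReal_sub, mul_sub]
    rw [integral_sub (ang_comp_int hΦ hc) (ang_comp_int hΦ hu), h p]
    simp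
  rw [e, norm_neg, zero_add]
  calc _ ≤ ∫ θ : AngS, ‖Φ θ‖ * (ε / (M + 1)) ∂angσ := by
        refine norm_integral_le_of_norm_le (ang_integrable (by fun_prop))
          (Eventually.of_forall fun θ => ?_)
        rw [norm_mul, Complex.norm_real]
        exact mul_le_mul_of_nonneg_left (hg' θ).le (norm_nonneg _)
    _ = M * (ε / (M + 1)) := integral_mul_const _ _
    _ ≤ ε := by
        rw [mul_div_assoc', div_le_iff₀ (by positivity)]
        nlinarith

theorem ang_complete {Φ : AngS → ℂ} (hΦ : Continuous Φ)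
    (h : ∀ (l : ℕ) (p : MvPolynomial (Fin 12) ℝ), p.IsHomogeneous l → angLap p = 0 →
      ∫ θ : AngS, Φ θ * (angEv p θ : ℂ) ∂angσ = 0) (θ : AngS) : Φ θ = 0 := by
  have h1 := ang_comp_poly hΦ h
  have hre := continuous_re.comp hΦ
  have him := continuous_im.comp hΦ
  have e1 := ang_comp_cont hΦ h1 hre
  have e2 := ang_comp_cont hΦ h1 him
  have e3 : ∫ θ : AngS, ((normSq (Φ θ) : ℝ) : ℂ) ∂angσ = 0 := by
    have e : ∀ θ : AngS, ((normSq (Φ θ) : ℝ) : ℂ) =
        Φ θ * ((re ∘ Φ) θ : ℂ) - I * (Φ θ * ((im ∘ Φ) θ : ℂ)) := fun θ => by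
      apply Complex.ext <;> simp [normSq_apply, mul_comm]
    simp only [e]
    rw [integral_sub (ang_comp_int hΦ hre) ((ang_comp_int hΦ him).const_mul I),
      integral_const_mul, e1, e2]
    simp
  rw [integral_complex_ofReal, ofReal_eq_zero] at e3
  by_contra hne
  haveI : angσ.IsOpenPosMeasure := by unfold angσ; infer_instance
  have := Continuous.integral_pos_of_hasCompactSupport_nonneg_nonzero (μ := angσ)
    (continuous_normSq.comp hΦ) (HasCompactSupport.of_compactSpace _)
    (fun θ => normSq_nonneg _) (x := θ) (by simpa using hne)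
  exact this.ne' e3

end Vale.Agent.P139
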