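import Vale.Agent.P139.Def

/-! P139 part Ang: definitions (sub-lead helper37). Do not change this file. -/

noncomputable section

open MeasureTheory Filter Topology Set Complex
open scoped ComplexConjugate ContDiff RealInnerProductSpace

namespace Vale.Agent.P139

/-- The unit sphere of `ℝ¹²`. -/
abbrev AngS : Type := Metric.sphere (0 : E12) 1

/-- Surface measure. -/
def angσ : Measure AngS := (volume : Measure E12).toSphere

/-- Coordinate vectors. -/
def angE (j : Fin 12) : E12 := EuclideanSpace.single j 1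

/-- Harmonic functions homogeneous of degree `l`. -/
structure AngH (l : ℕ) (h : E12 → ℝ) : Prop where
  smooth : ContDiff ℝ 2 h
  hom : ∀ (r : ℝ) (y : E12), h (r • y) = r ^ l * h y
  euler : ∀ y, fderiv ℝ h y y = l * h y
  lap : ∀ y, ∑ j, fderiv ℝ (fun z => fderiv ℝ h z (angE j)) y (angE j) = 0

/-- Projection on the spherical harmonic `h`, as a function of the radius. -/
def angPr (h : E12 → ℝ) (F : E12 → ℂ) (r : ℝ) : ℂ :=
  ∫ θ : AngS, F (r • (θ : E12)) * (h θ : ℂ) ∂angσ

/-- The same as a function of `X = r² / 4`. -/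
def angR (h : E12 → ℝ) (F : E12 → ℂ) (X : ℝ) : ℂ := angPr h F (2 * √X)

/-- Mean of `h` against the surface measure. -/
def angI (h : E12 → ℝ) : ℝ := ∫ θ : AngS, h θ ∂angσ

/-- `u` is `C^n` on `(0,∞)` and its `j`-th derivative is `O(X ^ (- w j))` at infinity. -/
def AngSb (n : ℕ) (w : ℕ → ℝ) (u : ℝ → ℂ) : Prop :=
  ContDiffOn ℝ n u (Ioi 0) ∧
    ∀ j ≤ n, ∃ C : ℝ, ∀ X : ℝ, 1 ≤ X → ‖iteratedDeriv j u X‖ ≤ C * X ^ (-w j)

/-- A polynomial as a function on `ℝ¹²`. -/
def angEv (p : MvPolynomial (Fin 12) ℝ) (y : E12) : ℝ := MvPolynomial.eval (fun i => y i) p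

/-- The Laplacian of a polynomial. -/
def angLap (p : MvPolynomial (Fin 12) ℝ) : MvPolynomial (Fin 12) ℝ :=
  ∑ j, MvPolynomial.pderiv j (MvPolynomial.pderiv j p)

/-- The squared radius as a polynomial. -/
def angR2 : MvPolynomial (Fin 12) ℝ := ∑ j, MvPolynomial.X j ^ 2

end Vale.Agent.P139
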