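import Vale.Agent.P139.Ang.Polar

/-! P139 part Ang, file Lap (sub-lead helper37). Definitions in Ang/Def.lean and Def.lean. Helper lemma names start with ang_lap_.

Plan.
ang_lap_eq: InnerProductSpace.laplacian_eq_iteratedFDeriv_orthonormalBasis with EuclideanSpace.basisFun, iteratedFDeriv_two_apply, fderiv_clm_apply.
ang_pr_euler: ang_pr_hasDerivAt and map_smul. ang_pr_lap: apply ang_gauss to G j = h ∂_j F - F ∂_j h (C1) and sum over j (HasDerivAt.sum; integral_finset_sum with ang_integrable).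
∑ j ∂_j (G j) = h ΔF (AngH.lap, the cross terms cancel). ∑ j θ_j G j (s θ) = h (s θ) fderiv F (s θ) θ - F (s θ) fderiv h (s θ) θ (θ = ∑ θ_j e_j), and for s > 0, h (s θ) = s^l h θ,
s * fderiv h (s θ) θ = l s^l h θ (euler). So for s > 0 the summed function equals s^(11+l) φ' s - l s^(10+l) φ s with φ = angPr h F (C2), and its derivative at r is r^(11+l) angPr h ΔF r.
Compare with the product rule (HasDerivAt.unique, congr_of_eventuallyEq on Ioi 0) and cancel r^(9+l).
-/

noncomputable section

open MeasureTheory Filter Topology Set Complex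
open scoped ComplexConjugate ContDiff RealInnerProductSpace

namespace Vale.Agent.P139

theorem ang_lap_eq {F : E12 → ℂ} (hF : ContDiff ℝ 2 F) (y : E12) :
    Laplacian.laplacian F y = ∑ j, fderiv ℝ (fun z => fderiv ℝ F z (angE j)) y (angE j) := by
  rw [InnerProductSpace.laplacian_eq_iteratedFDeriv_orthonormalBasis F
    (EuclideanSpace.basisFun (Fin 12) ℝ)]
  refine Finset.sum_congr rfl fun j _ => ?_
  have hd : DifferentiableAt ℝ (fderiv ℝ F) y :=
    (hF.fderiv_right (m := 1) le_rfl).differentiable one_ne_zero y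
  rw [iteratedFDeriv_two_apply, fderiv_clm_apply hd (differentiableAt_const _)]
  simp [angE]

theorem ang_lap_D {W : Type} [NormedAddCommGroup W] [NormedSpace ℝ W] {F : E12 → W}
    (hF : ContDiff ℝ 2 F) (j : Fin 12) : ContDiff ℝ 1 fun z => fderiv ℝ F z (angE j) :=
  (hF.fderiv_right (m := 1) le_rfl).clm_apply contDiff_const

theorem ang_lap_continuous {F : E12 → ℂ} (hF : ContDiff ℝ 2 F) :
    Continuous (Laplacian.laplacian F) := by
  rw [funext (ang_lap_eq hF)]
  exact continuous_finsetSum _ fun j _ =>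
    ((ang_lap_D hF j).continuous_fderiv one_ne_zero).clm_apply continuous_const

theorem ang_pr_euler {h : E12 → ℝ} (hh : Continuous h) {F : E12 → ℂ} (hF : ContDiff ℝ 1 F)
    (r : ℝ) : angPr h (fun y => fderiv ℝ F y y) r = r * deriv (angPr h F) r := by
  rw [(ang_pr_hasDerivAt hh hF r).deriv, ← integral_const_mul]
  simp only [angPr, map_smul, Complex.real_smul, mul_assoc]

theorem ang_lap_sum {W : Type} [NormedAddCommGroup W] [NormedSpace ℝ W] (L : E12 →L[ℝ] W)
    (v : E12) : ∑ j, v j • L (angE j) = L v := by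
  conv_rhs => rw [← (EuclideanSpace.basisFun (Fin 12) ℝ).sum_repr v]
  simp [angE]

/-- The vector field of Green's identity. -/
def angLapG (h : E12 → ℝ) (F : E12 → ℂ) (j : Fin 12) (y : E12) : ℂ :=
  (h y : ℂ) * fderiv ℝ F y (angE j) - F y * (fderiv ℝ h y (angE j) : ℝ)

theorem ang_lap_G_cd {h : E12 → ℝ} (hh : ContDiff ℝ 2 h) {F : E12 → ℂ} (hF : ContDiff ℝ 2 F)
    (j : Fin 12) : ContDiff ℝ 1 (angLapG h F j) :=
  ((ofRealCLM.contDiff.comp (hh.of_le one_le_two)).mul (ang_lap_D hF j)).sub
    ((hF.of_le one_le_two).mul (ofRealCLM.contDiff.comp (ang_lap_D hh j)))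

theorem ang_lap_G_div {l : ℕ} {h : E12 → ℝ} (hh : AngH l h) {F : E12 → ℂ} (hF : ContDiff ℝ 2 F)
    (y : E12) : ∑ j, fderiv ℝ (angLapG h F j) y (angE j) = h y * Laplacian.laplacian F y := by
  have e : ∀ j, fderiv ℝ (angLapG h F j) y (angE j) =
      h y * fderiv ℝ (fun z => fderiv ℝ F z (angE j)) y (angE j) -
        F y * (fderiv ℝ (fun z => fderiv ℝ h z (angE j)) y (angE j) : ℝ) := by
    intro j
    have h1 := ofRealCLM.hasFDerivAt.comp y (hh.smooth.differentiable two_ne_zero y).hasFDerivAt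
    have h2 := ((ang_lap_D hF j).differentiable one_ne_zero y).hasFDerivAt
    have h3 := (hF.differentiable two_ne_zero y).hasFDerivAt
    have h4 := ofRealCLM.hasFDerivAt.comp y
      ((ang_lap_D hh.smooth j).differentiable one_ne_zero y).hasFDerivAt
    have h5 : HasFDerivAt (angLapG h F j) _ y := (h1.mul h2).sub (h3.mul h4)
    rw [h5.fderiv]
    simp
    ring
  simp only [e]
  rw [Finset.sum_sub_distrib, ← Finset.mul_sum, ← Finset.mul_sum, ← ang_lap_eq hF, ← ofReal_sum,
    hh.lap y]
  simp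

theorem ang_lap_G_rad {l : ℕ} {h : E12 → ℝ} (hh : AngH l h) (F : E12 → ℂ) (s : ℝ) (v : E12) :
    s * ∑ j, angLapG h F j (s • v) * (v j : ℂ) =
      (s : ℂ) ^ l * (s * (fderiv ℝ F (s • v) v * h v) - l * (F (s • v) * h v)) := by
  have e1 := ang_lap_sum (fderiv ℝ F (s • v)) v
  have e2 := ang_lap_sum (fderiv ℝ h (s • v)) v
  have e3 := hh.euler (s • v)
  rw [map_smul, hh.hom, ← e2, smul_eq_mul] at e3
  have e4 := congrArg (fun t : ℝ => (t : ℂ)) e3
  simp only [smul_eq_mul, Complex.real_smul] at e1 e4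
  push_cast at e4
  have e : ∑ j, angLapG h F j (s • v) * (v j : ℂ) =
      (h (s • v) : ℂ) * ∑ j, (v j : ℂ) * fderiv ℝ F (s • v) (angE j) -
        F (s • v) * ∑ j, (v j : ℂ) * (fderiv ℝ h (s • v) (angE j) : ℝ) := by
    rw [Finset.mul_sum, Finset.mul_sum, ← Finset.sum_sub_distrib]
    exact Finset.sum_congr rfl fun j _ => by unfold angLapG; ring
  rw [e, e1, hh.hom]
  push_cast
  linear_combination (-F (s • v)) * e4

theorem ang_pr_lap {l : ℕ} {h : E12 → ℝ} (hh : AngH l h) {F : E12 → ℂ} (hF : ContDiff ℝ 2 F)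
    {r : ℝ} (hr : 0 < r) :
    (r : ℂ) ^ 2 * angPr h (Laplacian.laplacian F) r =
      (r : ℂ) ^ 2 * deriv (deriv (angPr h F)) r + 11 * r * deriv (angPr h F) r -
        l * (l + 10) * angPr h F r := by
  have hc := hh.smooth.continuous
  have hF1 : ContDiff ℝ 1 F := hF.of_le one_le_two
  have hG := ang_lap_G_cd hh.smooth hF
  have H := HasDerivAt.fun_sum (u := Finset.univ) fun j _ => ang_gauss (hG j) j hr
  set φ := angPr h F with hφ
  have hφ2 : ContDiff ℝ 2 φ := by
    have : ContDiff ℝ (2 : ℕ) φ := ang_pr_contDiff hc (by exact_mod_cast hF)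
    exact_mod_cast this
  have d1 : ∀ s, HasDerivAt φ (deriv φ s) s := fun s =>
    (hφ2.differentiable two_ne_zero s).hasDerivAt
  have d2 : HasDerivAt (deriv φ) (deriv (deriv φ) r) r :=
    ((hφ2.deriv' (n := 1)).differentiable one_ne_zero r).hasDerivAt
  have E1 : ∀ s : ℝ, ∑ j, (s : ℂ) ^ 11 * angPr (fun y => y j) (angLapG h F j) s =
      (s : ℂ) ^ (l + 10) * (s * deriv φ s - l * φ s) := by
    intro s
    have c1 := hF1.continuous_fderiv one_ne_zero
    have c0 := hF.continuous
    have i1 : Integrable (fun θ : AngS => (s : ℂ) * (fderiv ℝ F (s • (θ : E12)) θ * h θ)) angσ :=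
      ang_integrable (by fun_prop)
    have i2 : Integrable (fun θ : AngS => (l : ℂ) * (F (s • (θ : E12)) * h θ)) angσ :=
      ang_integrable (by fun_prop)
    have e : (s : ℂ) * ∑ j, angPr (fun y => y j) (angLapG h F j) s =
        (s : ℂ) ^ l * (s * deriv φ s - l * φ s) := by
      rw [hφ, (ang_pr_hasDerivAt hc hF1 s).deriv]
      unfold angPr
      rw [← integral_finsetSum, ← integral_const_mul, ← integral_const_mul, ← integral_const_mul,
        ← integral_sub i1 i2, ← integral_const_mul]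
      · exact integral_congr_ae (Eventually.of_forall fun θ => ang_lap_G_rad hh F s θ)
      · intro j _
        have := (hG j).continuous
        exact ang_integrable (by fun_prop)
    rw [← Finset.mul_sum]
    linear_combination (s : ℂ) ^ 10 * e
  have E2 : ∑ j, (r : ℂ) ^ 11 *
      angPr (fun _ => 1) (fun y => fderiv ℝ (angLapG h F j) y (angE j)) r =
      (r : ℂ) ^ (l + 11) * angPr h (Laplacian.laplacian F) r := by
    have e : ∑ j, angPr (fun _ => 1) (fun y => fderiv ℝ (angLapG h F j) y (angE j)) r =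
        (r : ℂ) ^ l * angPr h (Laplacian.laplacian F) r := by
      unfold angPr
      rw [← integral_finsetSum, ← integral_const_mul]
      · refine integral_congr_ae (Eventually.of_forall fun θ => ?_)
        simp only [ofReal_one, mul_one]
        rw [ang_lap_G_div hh hF, hh.hom]
        push_cast; ring
      · intro j _
        have := (hG j).continuous_fderiv one_ne_zero
        exact ang_integrable (by fun_prop)
    rw [← Finset.mul_sum, e]; ring
  simp only [E1, E2] at H
  have o : HasDerivAt (fun s : ℝ => (s : ℂ)) 1 r := ofRealCLM.hasDerivAt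
  have H2 := (o.pow (l + 10)).mul ((o.mul d2).sub ((d1 r).const_mul (l : ℂ)))
  have H3 := H.unique H2
  have hr0 : (r : ℂ) ^ (l + 9) ≠ 0 := pow_ne_zero _ (ofReal_ne_zero.2 hr.ne')
  apply mul_left_cancel₀ hr0
  simp only [Pi.mul_apply, Pi.sub_apply, Pi.pow_apply, show l + 10 - 1 = l + 9 from rfl] at H3
  push_cast at H3
  linear_combination H3

end Vale.Agent.P139
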