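import Vale.Agent.P139.Ang.RS
import Vale.Agent.P139.Ang.Comp

/-! P139 part Ang, file Main (helper37): assembly. -/

noncomputable section

open MeasureTheory Filter Topology Set Complex
open scoped ComplexConjugate ContDiff RealInnerProductSpace

namespace Vale.Agent.P139

theorem ang_main_sphere {F M : E12 → ℂ} (hF : Continuous F) (hM : Continuous M) {r : ℝ}
    (h0 : angPr (fun _ => 1) F r = angPr (fun _ => 1) M r)
    (h1 : ∀ j, angPr (fun y => y j) F r = angPr (fun y => y j) M r)
    (h2 : ∀ l h, 2 ≤ l → AngH l h → angPr h F r = angPr h M r) (θ : AngS) :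
    F (r • (θ : E12)) = M (r • (θ : E12)) := by
  have hr : Continuous fun θ : AngS => r • (θ : E12) := by fun_prop
  have hD : Continuous fun θ : AngS => F (r • (θ : E12)) - M (r • (θ : E12)) :=
    (hF.comp hr).sub (hM.comp hr)
  have key : ∀ h : E12 → ℝ, Continuous h → angPr h F r = angPr h M r →
      ∫ θ : AngS, (F (r • (θ : E12)) - M (r • (θ : E12))) * (h θ : ℂ) ∂angσ = 0 := by
    intro h hh e
    have hc : Continuous fun θ : AngS => (h θ : ℂ) :=
      continuous_ofReal.comp (hh.comp continuous_subtype_val)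
    simp only [sub_mul]
    exact (integral_sub (ang_integrable ((hF.comp hr).mul hc))
      (ang_integrable ((hM.comp hr).mul hc))).trans (sub_eq_zero.2 e)
  refine sub_eq_zero.1 (ang_complete hD (fun l p hp hl => ?_) θ)
  rcases Nat.lt_or_ge l 2 with hl2 | hl2
  · interval_cases l
    · obtain ⟨c, hc⟩ := ang_hom_zero hp
      have e := key (fun _ => 1) continuous_const h0
      have e2 : ∀ θ : AngS, (F (r • (θ : E12)) - M (r • (θ : E12))) * (angEv p θ : ℂ) =
          (c : ℂ) * ((F (r • (θ : E12)) - M (r • (θ : E12))) * (((1 : ℝ)) : ℂ)) := by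
        intro θ; rw [hc]; push_cast; ring
      simp only [e2]
      rw [integral_const_mul, e, mul_zero]
    · obtain ⟨a, ha⟩ := ang_hom_one hp
      have e2 : ∀ θ : AngS, (F (r • (θ : E12)) - M (r • (θ : E12))) * (angEv p θ : ℂ) =
          ∑ j, (a j : ℂ) * ((F (r • (θ : E12)) - M (r • (θ : E12))) * (((θ : E12) j : ℝ) : ℂ)) := by
        intro θ; rw [ha]; push_cast; rw [Finset.mul_sum]
        exact Finset.sum_congr rfl fun j _ => by ring
      simp only [e2]
      rw [integral_finsetSum]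
      · refine Finset.sum_eq_zero fun j _ => ?_
        rw [integral_const_mul, key (fun y => y j) (by fun_prop) (h1 j), mul_zero]
      · intro j _
        exact ang_integrable (continuous_const.mul (hD.mul (by fun_prop)))
  · have hh := ang_ev_harm hp hl
    exact key _ hh.smooth.continuous (h2 l _ hl2 hh)

variable {m : ℕ} (Q : Prof m)

theorem ang_main_XX : Continuous XX := by unfold XX; fun_prop

theorem ang_main_cq : Continuous (fun y => Q.q (XX y)) ∧
    Continuous (fun y => deriv Q.q (XX y)) := by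
  obtain ⟨δ, hδ, hs⟩ := Q.smooth
  have hm : ∀ y, XX y ∈ Ioi (-δ) := fun y => by
    have : 0 ≤ XX y := by unfold XX; positivity
    simp only [mem_Ioi]; linarith
  exact ⟨hs.continuousOn.comp_continuous ang_main_XX hm,
    (hs.continuousOn_deriv_of_isOpen isOpen_Ioi (by simp)).comp_continuous ang_main_XX hm⟩

theorem ang_main_cont : Continuous (fun y => Q.eP (XX y)) ∧ Continuous (fun y => Q.eT (XX y)) ∧
    ∀ j, Continuous (Q.eD j) := by
  obtain ⟨h1, h2⟩ := ang_main_cq Q
  refine ⟨continuous_const.mul h1, ?_, fun j => ?_⟩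
  · exact ((continuous_ofReal.comp ang_main_XX).mul h2).add (continuous_const.mul h1)
  · exact (continuous_ofReal.comp (by fun_prop)).mul h2

theorem ang_main_ext {F M : E12 → ℂ} (hF : Continuous F) (hM : Continuous M)
    (h0 : ∀ X, 0 < X → angR (fun _ => 1) F X = angR (fun _ => 1) M X)
    (h1 : ∀ X, 0 < X → ∀ j, angR (fun y => y j) F X = angR (fun y => y j) M X)
    (h2 : ∀ X, 0 < X → ∀ l h, 2 ≤ l → AngH l h → angR h F X = angR h M X) : F = M := by
  refine Continuous.ext_on (dense_compl_singleton (0 : E12)) hF hM fun y hy => ?_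
  have hy0 : y ≠ 0 := hy
  have hn : 0 < ‖y‖ := norm_pos_iff.2 hy0
  have hX : 0 < ‖y‖ ^ 2 / 4 := by positivity
  have hs : 2 * √(‖y‖ ^ 2 / 4) = ‖y‖ := by
    rw [show ‖y‖ ^ 2 / 4 = (‖y‖ / 2) ^ 2 by ring, Real.sqrt_sq (by positivity)]; ring
  have hθ : ‖y‖⁻¹ • y ∈ Metric.sphere (0 : E12) 1 := by
    rw [mem_sphere_zero_iff_norm, norm_smul, norm_inv, norm_norm, inv_mul_cancel₀ hn.ne']
  have e := ang_main_sphere hF hM (h0 _ hX) (h1 _ hX) (h2 _ hX) ⟨_, hθ⟩
  rw [hs] at e
  simpa [smul_smul, mul_inv_cancel₀ hn.ne'] using e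

theorem ang_main_all (h : Q.RMS) : Q.MS := by
  intro lam F G EF EG hlam hF hG hb hE h1 h2
  have key : ∀ l k, AngH l k → Q.InE l (angR k F) (angR k G) := fun l k hk =>
    h l lam _ _ _ _ hlam (ang_rs_inE Q hk hE) (ang_rsol Q hk hF hG hb hE h1 h2)
  obtain ⟨a0, a1, a2, -, ha2, ha⟩ := key 0 _ ang_harm_one
  choose b0 b1 b hb0 hb1 hb using fun j => key 1 _ (ang_harm_coord j)
  have ha2' : a2 = 0 := ha2 (by norm_num)
  have hI1 : (angI (fun _ => 1) : ℂ) ≠ 0 := ofReal_ne_zero.2 ang_I_one_pos.ne'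
  have hI2 : ∀ j, (angI (fun y => y j * y j) : ℂ) ≠ 0 := fun j =>
    ofReal_ne_zero.2 (ang_I_sq_pos j).ne'
  set c0 : ℂ := a0 / angI (fun _ => 1) with hc0
  set c1 : ℂ := a1 / angI (fun _ => 1) with hc1
  set c : Fin 12 → ℂ := fun j => b j / angI (fun y => y j * y j) with hc
  set M : E12 → ℂ := fun y => c0 * Q.eP (XX y) + c1 * Q.eT (XX y) + ∑ j, c j * Q.eD j y with hM
  set M' : E12 → ℂ := fun y => c0 * conj (Q.eP (XX y)) + c1 * conj (Q.eT (XX y)) +
    ∑ j, c j * conj (Q.eD j y) with hM'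
  obtain ⟨k1, k2, k3⟩ := ang_main_cont Q
  have cM : Continuous M :=
    ((continuous_const.mul k1).add (continuous_const.mul k2)).add
      (continuous_finsetSum _ fun j _ => continuous_const.mul (k3 j))
  have cM' : Continuous M' :=
    ((continuous_const.mul (continuous_conj.comp k1)).add
      (continuous_const.mul (continuous_conj.comp k2))).add
      (continuous_finsetSum _ fun j _ => continuous_const.mul (continuous_conj.comp (k3 j)))
  have pr : ∀ {k : E12 → ℝ}, Continuous k → ∀ {X : ℝ}, 0 < X → _ := fun {k} hk {X} hX =>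
    ang_mode_proj Q (F := M) (G := M') (c0 := c0) (c1 := c1) (c := c) hk (fun y => ⟨rfl, rfl⟩) hX
  have s0 : ∑ j, c j * (angI (fun y => y j * (1 : ℝ)) : ℂ) = 0 :=
    Finset.sum_eq_zero fun j _ => by rw [ang_I_coord ang_harm_one (by norm_num) j]; simp
  have s1 : ∀ i, ∑ j, c j * (angI (fun y => y j * y i) : ℂ) = b i := by
    intro i
    rw [Finset.sum_eq_single i]
    · simp only [hc]; exact div_mul_cancel₀ _ (hI2 i)
    · intro j _ hj
      rw [ang_I_prod hj]; simp
    · simp
  have t0 : (angI (fun _ => 1) : ℂ) * c0 = a0 := mul_div_cancel₀ _ hI1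
  have t1 : (angI (fun _ => 1) : ℂ) * c1 = a1 := mul_div_cancel₀ _ hI1
  have P0 : ∀ X, 0 < X → angR (fun _ => 1) F X = angR (fun _ => 1) M X ∧
      angR (fun _ => 1) G X = angR (fun _ => 1) M' X := by
    intro X hX
    obtain ⟨p1, p2⟩ := pr (k := fun _ => 1) continuous_const hX
    rw [p1, p2, (ha X hX).1, (ha X hX).2, s0, t0, t1, ha2']
    exact ⟨rfl, rfl⟩
  have P1 : ∀ X, 0 < X → ∀ j, angR (fun y => y j) F X = angR (fun y => y j) M X ∧
      angR (fun y => y j) G X = angR (fun y => y j) M' X := by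
    intro X hX j
    obtain ⟨p1, p2⟩ := pr (k := fun y => y j) (by fun_prop) hX
    rw [p1, p2, (hb j X hX).1, (hb j X hX).2, s1, (hb0 j one_ne_zero).1, (hb0 j one_ne_zero).2,
      ang_I_zero (ang_harm_coord j) one_ne_zero]
    simp
  have P2 : ∀ X, 0 < X → ∀ l k, 2 ≤ l → AngH l k → angR k F X = angR k M X ∧
      angR k G X = angR k M' X := by
    intro X hX l k hl hk
    obtain ⟨p1, p2⟩ := pr hk.smooth.continuous hX
    obtain ⟨d0, d1, d2, e0, e1, e⟩ := key l k hk
    have s2 : ∑ j, c j * (angI (fun y => y j * k y) : ℂ) = 0 :=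
      Finset.sum_eq_zero fun j _ => by rw [ang_I_coord hk (by omega) j]; simp
    rw [p1, p2, (e X hX).1, (e X hX).2, s2, (e0 (by omega)).1, (e0 (by omega)).2, e1 (by omega),
      ang_I_zero hk (by omega)]
    simp
  have eF : F = M := ang_main_ext hF.continuous cM (fun X hX => (P0 X hX).1)
    (fun X hX j => (P1 X hX j).1) (fun X hX l k hl hk => (P2 X hX l k hl hk).1)
  have eG : G = M' := ang_main_ext hG.continuous cM' (fun X hX => (P0 X hX).2)
    (fun X hX j => (P1 X hX j).2) (fun X hX l k hl hk => (P2 X hX l k hl hk).2)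
  exact ⟨c0, c1, c, fun y => ⟨congrFun eF y, congrFun eG y⟩⟩

end Vale.Agent.P139
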