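import Vale.Agent.P139.Ang.Def

/-! P139 part Ang, file Poly (sub-lead helper37). Definitions in Ang/Def.lean and Def.lean. Helper lemma names start with ang_poly_.

Plan.
ang_ev_contDiff, ang_ev_fderiv: MvPolynomial.induction_on (C, add, mul_X), proving HasFDerivAt with derivative v ↦ ∑ j, angEv (pderiv j p) y * v j. hom: IsHomogeneous.eval₂/eval_smul type lemma or sum over the support.
euler from hom or IsHomogeneous.sum_X_mul_pderiv. ang_lap_r2: pderiv j (R^(k+1) h) = 2 (k+1) X j R^k h + R^(k+1) pderiv j h (Derivation.leibniz, leibniz_pow); treat k = 0 and k+1 separately or do an induction on k with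
angLap (R * g) = 24 g + 4 ∑ X j * pderiv j g + R * angLap g. ang_decomp: strong induction on n. For n < 2 angLap p = 0 (IsHomogeneous.pderiv, a homogeneous polynomial of degree 0 is a constant).
For n + 2: angLap p is homogeneous of degree n, so it is in the span; by Submodule.span_induction there is s in the span for n+2, homogeneous of degree n+2, with angLap s = angLap p (ang_lap_r2); p - s is harmonic.
ang_hom_zero, ang_hom_one: homogeneousComponent or the support (Finsupp of degree one is single j 1); or use Euler: p = ∑ X j * pderiv j p with pderiv j p homogeneous of degree 0.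
-/

noncomputable section

open MeasureTheory Filter Topology Set Complex
open scoped ComplexConjugate ContDiff RealInnerProductSpace

namespace Vale.Agent.P139

open MvPolynomial

theorem ang_poly_C (c : ℝ) : angEv (C c) = fun _ => c := by
  funext y; simp [angEv]

theorem ang_poly_add (p q : MvPolynomial (Fin 12) ℝ) :
    angEv (p + q) = fun y => angEv p y + angEv q y := by
  funext y; simp [angEv]

theorem ang_poly_mulX (p : MvPolynomial (Fin 12) ℝ) (i : Fin 12) :
    angEv (p * X i) = fun y => angEv p y * y i := by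
  funext y; simp [angEv]

theorem ang_ev_contDiff (p : MvPolynomial (Fin 12) ℝ) : ContDiff ℝ ∞ (angEv p) := by
  induction p using MvPolynomial.induction_on with
  | C a => rw [ang_poly_C]; exact contDiff_const
  | add p q hp hq => rw [ang_poly_add]; exact hp.add hq
  | mul_X p i hp =>
    rw [ang_poly_mulX]
    exact hp.mul (EuclideanSpace.proj (𝕜 := ℝ) i).contDiff

theorem ang_ev_fderiv (p : MvPolynomial (Fin 12) ℝ) (y : E12) (j : Fin 12) :
    fderiv ℝ (angEv p) y (angE j) = angEv (pderiv j p) y := by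
  have hd : ∀ q, HasFDerivAt (angEv q) (fderiv ℝ (angEv q) y) y := fun q =>
    ((ang_ev_contDiff q).differentiable (by simp) y).hasFDerivAt
  induction p using MvPolynomial.induction_on with
  | C a => rw [ang_poly_C]; simp [angEv]
  | add p q hp hq =>
    rw [ang_poly_add, ((hd p).fun_add (hd q)).fderiv, map_add, ang_poly_add]
    simp [hp, hq]
  | mul_X p i hp =>
    have h2 : HasFDerivAt (fun z : E12 => z i) (EuclideanSpace.proj (𝕜 := ℝ) i) y :=
      (EuclideanSpace.proj (𝕜 := ℝ) i).hasFDerivAt
    rw [ang_poly_mulX, ((hd p).fun_mul h2).fderiv]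
    simp only [ContinuousLinearMap.add_apply, ContinuousLinearMap.smul_apply, hp, smul_eq_mul]
    by_cases hij : i = j
    · subst hij
      simp [angE, angEv]
    · simp [angE, angEv, hij, pderiv_X_of_ne hij]

theorem ang_poly_sum (L : E12 →L[ℝ] ℝ) (v : E12) : ∑ j, v j * L (angE j) = L v := by
  conv_rhs => rw [← (EuclideanSpace.basisFun (Fin 12) ℝ).sum_repr v]
  simp [angE]

theorem ang_ev_harm {l : ℕ} {p : MvPolynomial (Fin 12) ℝ} (hp : p.IsHomogeneous l)
    (h0 : angLap p = 0) : AngH l (angEv p) := by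
  refine ⟨(ang_ev_contDiff p).of_le (by norm_cast), fun r y => ?_, fun y => ?_, fun y => ?_⟩
  · simp only [angEv, eval_eq, Finset.mul_sum]
    refine Finset.sum_congr rfl fun d hd => ?_
    simp only [PiLp.smul_apply, smul_eq_mul, mul_pow, Finset.prod_mul_distrib,
      Finset.prod_pow_eq_pow_sum]
    rw [hp.degree_eq_sum_deg_support hd]
    ring
  · rw [← ang_poly_sum]
    simp only [ang_ev_fderiv]
    have := congrArg (fun q => angEv q y) hp.sum_X_mul_pderiv
    simpa [angEv] using this
  · simp only [ang_ev_fderiv]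
    have := congrArg (fun q => angEv q y) h0
    simpa [angEv, angLap] using this

theorem ang_poly_dR (j : Fin 12) : pderiv j angR2 = 2 * X j := by
  unfold angR2
  rw [map_sum, Finset.sum_eq_single j]
  · simp
  · intro i _ hij
    simp [pderiv_X_of_ne hij]
  · simp

theorem ang_poly_R_hom : angR2.IsHomogeneous 2 :=
  IsHomogeneous.sum _ _ _ fun j _ => isHomogeneous_X_pow j 2

theorem ang_poly_lapR {d : ℕ} {g : MvPolynomial (Fin 12) ℝ} (hg : g.IsHomogeneous d) :
    angLap (angR2 * g) = (24 + 4 * d) * g + angR2 * angLap g := by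
  have e : ∀ j, pderiv j (pderiv j (angR2 * g)) =
      2 * g + 4 * (X j * pderiv j g) + angR2 * pderiv j (pderiv j g) := by
    intro j
    have h2 : pderiv j (2 : MvPolynomial (Fin 12) ℝ) = 0 := by
      rw [show (2 : MvPolynomial (Fin 12) ℝ) = C 2 from rfl]; exact pderiv_C
    simp only [pderiv_mul, ang_poly_dR, map_add, h2, pderiv_X_self]
    ring
  unfold angLap
  simp only [e, Finset.sum_add_distrib, ← Finset.mul_sum, hg.sum_X_mul_pderiv]
  simp
  ring

theorem ang_lap_r2 {l : ℕ} {p : MvPolynomial (Fin 12) ℝ} (hp : p.IsHomogeneous l)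
    (h0 : angLap p = 0) (k : ℕ) :
    angLap (angR2 ^ (k + 1) * p) =
      C ((2 * k + 2 : ℝ) * (2 * k + 2 * l + 12)) * (angR2 ^ k * p) := by
  have c2 : (C 2 : MvPolynomial (Fin 12) ℝ) = 2 := rfl
  have c12 : (C 12 : MvPolynomial (Fin 12) ℝ) = 12 := rfl
  induction k with
  | zero =>
    rw [zero_add, pow_one, ang_poly_lapR hp, h0]
    simp only [map_mul, map_add, map_natCast, c2, c12]
    push_cast; ring
  | succ k ih =>
    rw [pow_succ' angR2 (k + 1), mul_assoc, ang_poly_lapR ((ang_poly_R_hom.pow (k + 1)).mul hp), ih]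
    simp only [map_mul, map_add, map_natCast, c2, c12]
    push_cast; ring

theorem ang_poly_lap_add (p q : MvPolynomial (Fin 12) ℝ) : angLap (p + q) = angLap p + angLap q := by
  simp [angLap, Finset.sum_add_distrib]

theorem ang_poly_lap_sub (p q : MvPolynomial (Fin 12) ℝ) : angLap (p - q) = angLap p - angLap q := by
  simp [angLap, Finset.sum_sub_distrib]

theorem ang_poly_lap_smul (c : ℝ) (p : MvPolynomial (Fin 12) ℝ) :
    angLap (c • p) = c • angLap p := by
  simp [angLap, Finset.smul_sum]

theorem ang_poly_const {p : MvPolynomial (Fin 12) ℝ} (hp : p.IsHomogeneous 0) :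
    p = C (coeff 0 p) :=
  totalDegree_eq_zero_iff_eq_C.1 ((totalDegree_zero_iff_isHomogeneous _).2 hp)

theorem ang_decomp (n : ℕ) (p : MvPolynomial (Fin 12) ℝ) (hp : p.IsHomogeneous n) :
    p ∈ Submodule.span ℝ {s : MvPolynomial (Fin 12) ℝ | ∃ (k l : ℕ) (g : MvPolynomial (Fin 12) ℝ),
      2 * k + l = n ∧ g.IsHomogeneous l ∧ angLap g = 0 ∧ s = angR2 ^ k * g} := by
  induction n using Nat.strong_induction_on generalizing p with
  | _ n ih =>
  rcases Nat.lt_or_ge n 2 with hn | hn
  · refine Submodule.subset_span ⟨0, n, p, by simp, hp, ?_, by simp⟩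
    refine Finset.sum_eq_zero fun j _ => ?_
    have h1 : (pderiv j p).IsHomogeneous 0 := by
      have := hp.pderiv (i := j)
      rwa [show n - 1 = 0 by omega] at this
    rw [ang_poly_const h1, pderiv_C]
  · obtain ⟨n, rfl⟩ := Nat.exists_eq_add_of_le' hn
    have hL : (angLap p).IsHomogeneous n :=
      IsHomogeneous.sum _ _ _ fun j _ => (hp.pderiv (i := j)).pderiv
    have key : ∀ q ∈ Submodule.span ℝ {s : MvPolynomial (Fin 12) ℝ |
        ∃ (k l : ℕ) (g : MvPolynomial (Fin 12) ℝ),
        2 * k + l = n ∧ g.IsHomogeneous l ∧ angLap g = 0 ∧ s = angR2 ^ k * g},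
        ∃ s ∈ Submodule.span ℝ {s : MvPolynomial (Fin 12) ℝ |
        ∃ (k l : ℕ) (g : MvPolynomial (Fin 12) ℝ),
        2 * k + l = n + 2 ∧ g.IsHomogeneous l ∧ angLap g = 0 ∧ s = angR2 ^ k * g},
        s.IsHomogeneous (n + 2) ∧ angLap s = q := by
      intro q hq
      induction hq using Submodule.span_induction with
      | mem x hx =>
        obtain ⟨k, l, g, hk, hg, h0, rfl⟩ := hx
        have hc : (2 * k + 2 : ℝ) * (2 * k + 2 * l + 12) ≠ 0 := by positivity
        have hh : (angR2 ^ (k + 1) * g).IsHomogeneous (n + 2) := by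
          have := (ang_poly_R_hom.pow (k + 1)).mul hg
          rwa [show 2 * (k + 1) + l = n + 2 by omega] at this
        refine ⟨((2 * k + 2 : ℝ) * (2 * k + 2 * l + 12))⁻¹ • (angR2 ^ (k + 1) * g),
          Submodule.smul_mem _ _ (Submodule.subset_span ⟨k + 1, l, g, by omega, hg, h0, rfl⟩),
          (homogeneousSubmodule _ _ _).smul_mem _ hh, ?_⟩
        rw [ang_poly_lap_smul, ang_lap_r2 hg h0, C_mul', smul_smul, inv_mul_cancel₀ hc, one_smul]
      | zero => exact ⟨0, Submodule.zero_mem _, isHomogeneous_zero _ _ _, by simp [angLap]⟩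
      | add x y _ _ hx hy =>
        obtain ⟨s, s1, s2, s3⟩ := hx
        obtain ⟨t, t1, t2, t3⟩ := hy
        exact ⟨s + t, Submodule.add_mem _ s1 t1, s2.add t2, by rw [ang_poly_lap_add, s3, t3]⟩
      | smul a x _ hx =>
        obtain ⟨s, s1, s2, s3⟩ := hx
        exact ⟨a • s, Submodule.smul_mem _ _ s1, (homogeneousSubmodule _ _ _).smul_mem _ s2,
          by rw [ang_poly_lap_smul, s3]⟩
    obtain ⟨s, s1, s2, s3⟩ := key _ (ih n (by omega) _ hL)
    rw [show p = (p - s) + s by ring]
    refine Submodule.add_mem _ (Submodule.subset_span ⟨0, n + 2, p - s, by simp, hp.sub s2, ?_,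
      by simp⟩) s1
    rw [ang_poly_lap_sub, s3, sub_self]

theorem ang_hom_zero {p : MvPolynomial (Fin 12) ℝ} (hp : p.IsHomogeneous 0) :
    ∃ c : ℝ, ∀ y, angEv p y = c :=
  ⟨coeff 0 p, fun y => by
    conv_lhs => rw [ang_poly_const hp, ang_poly_C]⟩

theorem ang_hom_one {p : MvPolynomial (Fin 12) ℝ} (hp : p.IsHomogeneous 1) :
    ∃ a : Fin 12 → ℝ, ∀ y, angEv p y = ∑ j, a j * y j := by
  choose a ha using fun j => ang_hom_zero (hp.pderiv (i := j))
  refine ⟨a, fun y => ?_⟩
  have := congrArg (fun q => angEv q y) hp.sum_X_mul_pderiv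
  simp only [one_smul] at this
  rw [← this]
  simp only [← ha _ y]
  simp [angEv, mul_comm]

theorem ang_harm_one : AngH 0 (fun _ => 1) := by
  have := ang_ev_harm (isHomogeneous_C (Fin 12) (1 : ℝ)) (by simp [angLap])
  rwa [ang_poly_C] at this

theorem ang_harm_coord (j : Fin 12) : AngH 1 (fun y => y j) := by
  have h := ang_ev_harm (isHomogeneous_X ℝ j) (Finset.sum_eq_zero fun i _ => by
    by_cases hij : j = i
    · subst hij; simp
    · simp [pderiv_X_of_ne hij])
  have e : angEv (X j) = fun y => y j := by funext y; simp [angEv]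
  rwa [e] at h

theorem ang_harm_prod {i j : Fin 12} (hij : i ≠ j) : AngH 2 (fun y => y i * y j) := by
  have h := ang_ev_harm ((isHomogeneous_X ℝ i).mul (isHomogeneous_X ℝ j))
    (Finset.sum_eq_zero fun k _ => by
      by_cases hi : i = k
      · subst hi
        simp [pderiv_X_of_ne hij.symm]
      · by_cases hj : j = k
        · subst hj
          simp [pderiv_X_of_ne hi]
        · simp [pderiv_X_of_ne hi, pderiv_X_of_ne hj])
  have e : angEv (X i * X j) = fun y => y i * y j := by funext y; simp [angEv]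
  rwa [e] at h

end Vale.Agent.P139
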