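import Vale.Agent.P139.Ang.Lap
import Vale.Agent.P139.Ang.Poly

/-! P139 part Ang, file Orth (sub-lead helper37). Definitions in Ang/Def.lean and Def.lean. Helper lemma names start with ang_orth_.

Plan.
ang_I_zero: ang_pr_lap with F = 1 (angPr h 1 is the constant angI h, integral_ofReal; the Laplacian of a constant vanishes by ang_lap_eq), r = 1. ang_I_coord: F y = y j, angPr h F r = r * angI (y j * h),
so (11 - l (l+10)) c = 0 and l (l+10) = 11 only for l = 1. Positivity: integral of a continuous nonnegative function that is nonzero at angE j (IsOpenPosMeasure), measure of univ positive.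
ang_pr_mode: XX (r • θ) = r^2/4 on the sphere; integral_add, integral_finset_sum, integral_const_mul, integral_ofReal. ang_pr_radial: the radial factor is constant on the sphere.
-/

noncomputable section

open MeasureTheory Filter Topology Set Complex
open scoped ComplexConjugate ContDiff RealInnerProductSpace

namespace Vale.Agent.P139

theorem ang_orth_I (h : E12 → ℝ) : (angI h : ℂ) = ∫ θ : AngS, (h θ : ℂ) ∂angσ :=
  integral_ofReal.symm

theorem ang_orth_pos {h : E12 → ℝ} (hh : Continuous h) (h0 : ∀ y, 0 ≤ h y) {j : Fin 12}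
    (hj : h (angE j) ≠ 0) : 0 < angI h := by
  have : angσ.IsOpenPosMeasure := by unfold angσ; infer_instance
  have hc : Continuous fun θ : AngS => h θ := hh.comp continuous_subtype_val
  exact integral_pos_of_integrable_nonneg_nonzero (x := ⟨angE j, by simp [angE]⟩) hc
    (ang_integrable hc) (fun θ => h0 θ) hj

theorem ang_I_zero {l : ℕ} {h : E12 → ℝ} (hh : AngH l h) (hl : l ≠ 0) : angI h = 0 := by
  have H := ang_pr_lap hh (F := fun _ => 1) contDiff_const one_pos
  have e1 : angPr h (fun _ => 1) = fun _ => (angI h : ℂ) := by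
    funext r; simp [angPr, ang_orth_I]
  have e2 : Laplacian.laplacian (fun _ : E12 => (1 : ℂ)) = fun _ => 0 := by
    funext y; rw [ang_lap_eq contDiff_const]; simp
  rw [e1, e2] at H
  have h1 : (l : ℂ) ≠ 0 := by exact_mod_cast hl
  have h2 : (l : ℂ) + 10 ≠ 0 := by exact_mod_cast (by omega : l + 10 ≠ 0)
  simpa [angPr, h1, h2] using H

theorem ang_I_coord {l : ℕ} {h : E12 → ℝ} (hh : AngH l h) (hl : l ≠ 1) (j : Fin 12) :
    angI (fun y => y j * h y) = 0 := by
  let L : E12 →L[ℝ] ℂ := ofRealCLM.comp (EuclideanSpace.proj j)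
  have hL : ∀ y, L y = (y j : ℂ) := fun y => rfl
  have H := ang_pr_lap hh (F := L) L.contDiff one_pos
  have e1 : angPr h L = fun r : ℝ => (r : ℂ) * (angI (fun y => y j * h y) : ℂ) := by
    funext r
    rw [ang_orth_I, ← integral_const_mul]
    simp only [angPr, hL, PiLp.smul_apply, smul_eq_mul, ofReal_mul, mul_assoc]
  have e2 : Laplacian.laplacian (L : E12 → ℂ) = fun _ => 0 := by
    funext y; rw [ang_lap_eq L.contDiff]; simp
  have e3 : ∀ c : ℂ, deriv (fun r : ℝ => (r : ℂ) * c) = fun _ => c := fun c => by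
    funext r
    simpa using (ofRealCLM.hasDerivAt.mul_const c).deriv
  rw [e1, e2, e3] at H
  have h1 : (l : ℂ) - 1 ≠ 0 := sub_ne_zero.2 (by exact_mod_cast hl)
  have h2 : (l : ℂ) + 11 ≠ 0 := by exact_mod_cast (by omega : l + 11 ≠ 0)
  have h3 : ((l : ℂ) - 1) * ((l : ℂ) + 11) * (angI (fun y => y j * h y) : ℂ) = 0 := by
    simp only [angPr, zero_mul, integral_zero, deriv_const, ofReal_one] at H
    linear_combination H
  simpa [h1, h2] using h3

theorem ang_I_one_pos : 0 < angI (fun _ => 1) :=
  ang_orth_pos continuous_const (fun _ => zero_le_one) (j := 0) one_ne_zero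

theorem ang_I_sq_pos (j : Fin 12) : 0 < angI (fun y => y j * y j) :=
  ang_orth_pos (by fun_prop) (fun y => mul_self_nonneg _) (j := j) (by simp [angE])

theorem ang_I_prod {i j : Fin 12} (hij : i ≠ j) : angI (fun y => y i * y j) = 0 :=
  ang_I_zero (ang_harm_prod hij) two_ne_zero

theorem ang_XX_smul (r : ℝ) (θ : AngS) : XX (r • (θ : E12)) = r ^ 2 / 4 := by
  have hθ : ‖(θ : E12)‖ = 1 := by simp
  rw [XX, norm_smul, hθ, mul_one, Real.norm_eq_abs, sq_abs]

theorem ang_pr_mode {h : E12 → ℝ} (hh : Continuous h) (A B : ℝ → ℂ) (c : Fin 12 → ℂ) (r : ℝ) :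
    angPr h (fun y => A (XX y) + ∑ j, c j * (((y j / 2 : ℝ) : ℂ) * B (XX y))) r =
      (angI h : ℂ) * A (r ^ 2 / 4) +
        (∑ j, c j * (angI (fun y => y j * h y) : ℂ)) * (((r / 2 : ℝ) : ℂ) * B (r ^ 2 / 4)) := by
  have i1 : Integrable (fun θ : AngS => (h θ : ℂ) * A (r ^ 2 / 4)) angσ :=
    ang_integrable (by fun_prop)
  have i2 : ∀ j, Integrable (fun θ : AngS => c j * (((θ : E12) j * h θ : ℝ) : ℂ) *
      (((r / 2 : ℝ) : ℂ) * B (r ^ 2 / 4))) angσ := fun j => ang_integrable (by fun_prop)
  simp only [ang_orth_I, Finset.sum_mul, ← integral_const_mul, ← integral_mul_const]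
  rw [← integral_finsetSum _ fun j _ => i2 j,
    ← integral_add i1 (integrable_finsetSum _ fun j _ => i2 j)]
  refine integral_congr_ae (Eventually.of_forall fun θ => ?_)
  simp only [ang_XX_smul, add_mul, Finset.sum_mul, PiLp.smul_apply, smul_eq_mul]
  congr 1
  · ring
  · refine Finset.sum_congr rfl fun j _ => ?_
    push_cast
    ring

theorem ang_pr_radial (h : E12 → ℝ) (A : ℝ → ℂ) (F : E12 → ℂ) (r : ℝ) :
    angPr h (fun y => A (XX y) * F y) r = A (r ^ 2 / 4) * angPr h F r := by
  simp only [angPr, ang_XX_smul, ← integral_const_mul, mul_assoc]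

end Vale.Agent.P139
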