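import Vale.Agent.P139.Ang.Reg

/-! P139 part Ang, file Polar (sub-lead helper37). Definitions in Ang/Def.lean and Def.lean. Helper lemma names start with ang_polar_.

Plan.
ang_polar: as in the proof of MeasureTheory.integral_fun_norm_addHaar (Mathlib/MeasureTheory/Constructions/HaarToSphere.lean): restrict to {0}ᶜ, Measure.measurePreserving_homeomorphUnitSphereProd,
integral_prod_symm (integrability transported by MeasurePreserving.integrable_comp_emb), Measure.volumeIoiPow, integral_withDensity_eq_integral_smul, integral_subtype_comap; finrank E12 - 1 = 11.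
ang_gauss: let a r = r^11 * angPr (y ↦ y j) G r (it is C1: ang_pr_contDiff) and b r = r^11 * angPr 1 (∂_j G) r (continuous). For χ smooth with compact support and tsupport in Ioi 0, T y = χ |y| * G y is C1
with compact support (zero near 0; contDiffAt_norm elsewhere), ∫ fderiv T y (angE j) = 0 (integral_mul_fderiv_eq_neg_fderiv_mul_of_integrable with the constant 1, or integral_fderiv_eq_zero type lemma), and
fderiv T y e = χ |y| ∂_j G y + χ' |y| (y j / |y|) G y for y ≠ 0. ang_polar gives ∫_(r>0) χ b + χ' a = 0; and ∫ (χ a)' = 0 (integral_eq_zero_of_hasDerivAt_of_integrable or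
HasCompactSupport.integral_deriv_eq). So ∫ χ • (b - a') = 0 for all such χ; IsOpen.ae_eq_zero_of_integral_contDiff_smul_eq_zero on Ioi 0, and continuity (Measure.eqOn_open_of_ae_eq).
-/

noncomputable section

open MeasureTheory Filter Topology Set Complex
open scoped ComplexConjugate ContDiff RealInnerProductSpace

namespace Vale.Agent.P139

theorem ang_polar {G : E12 → ℂ} (hG : Integrable G) :
    ∫ y, G y = ∫ r in Ioi (0 : ℝ), (r : ℂ) ^ 11 * ∫ θ : AngS, G (r • (θ : E12)) ∂angσ := by
  have hd : Module.finrank ℝ E12 - 1 = 11 := by simp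
  have mp := (volume : Measure E12).measurePreserving_homeomorphUnitSphereProd
  rw [hd] at mp
  have he := (homeomorphUnitSphereProd E12).measurableEmbedding
  set Φ : AngS × Ioi (0 : ℝ) → ℂ := fun p => G ((p.2 : ℝ) • (p.1 : E12)) with hΦ
  have hc : Φ ∘ homeomorphUnitSphereProd E12 = fun x : ({(0)}ᶜ : Set E12) => G x.1 := by
    funext x
    have hx : ‖x.1‖ ≠ 0 := norm_ne_zero_iff.2 x.2
    simp [hΦ, smul_smul, mul_inv_cancel₀ hx]
  have hi : Integrable Φ (angσ.prod (.volumeIoiPow 11)) := by
    refine (mp.integrable_comp_emb he).1 ?_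
    rw [hc]
    exact (integrableOn_iff_comap_subtypeVal (measurableSet_singleton _).compl).1 hG.integrableOn
  calc
    ∫ y, G y = ∫ x : ({(0)}ᶜ : Set E12), G x.1 ∂((volume : Measure E12).comap (↑)) := by
      rw [integral_subtype_comap (measurableSet_singleton _).compl G, restrict_compl_singleton]
    _ = ∫ p, Φ p ∂angσ.prod (.volumeIoiPow 11) := by
      rw [← hc]; exact mp.integral_comp he Φ
    _ = ∫ r : Ioi (0 : ℝ), (∫ θ : AngS, G ((r : ℝ) • (θ : E12)) ∂angσ) ∂.volumeIoiPow 11 :=
      integral_prod_symm Φ hi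
    _ = _ := by
      simp only [Measure.volumeIoiPow, ENNReal.ofReal]
      rw [integral_withDensity_eq_integral_smul,
        integral_subtype_comap measurableSet_Ioi fun a ↦ Real.toNNReal (a ^ 11) •
          ∫ θ : AngS, G (a • (θ : E12)) ∂angσ,
        setIntegral_congr_fun measurableSet_Ioi fun x hx ↦ ?_]
      · rw [NNReal.smul_def, Real.coe_toNNReal _ (pow_nonneg hx.out.le _), Complex.real_smul]
        push_cast; rfl
      · exact (measurable_subtype_coe.pow_const _).real_toNNReal

theorem ang_polar_norm {y : E12} (hy : y ≠ 0) :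
    HasFDerivAt (fun z : E12 => ‖z‖) (‖y‖⁻¹ • innerSL ℝ y) y := by
  have hn : 0 < ‖y‖ := norm_pos_iff.2 hy
  have h := (hasStrictFDerivAt_norm_sq y).hasFDerivAt.sqrt (by positivity)
  simp only [Real.sqrt_sq (norm_nonneg _)] at h
  have e : (1 / (2 * ‖y‖)) • 2 • innerSL ℝ y = ‖y‖⁻¹ • innerSL ℝ y := by
    rw [← Nat.cast_smul_eq_nsmul ℝ, smul_smul]
    congr 1
    field_simp
    norm_num
  rwa [e] at h

theorem ang_polar_cd {χ : ℝ → ℝ} (hχ : ContDiff ℝ ∞ χ) (hs : tsupport χ ⊆ Ioi 0) :
    ContDiff ℝ 1 (fun y : E12 => χ ‖y‖) := by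
  rw [contDiff_iff_contDiffAt]
  intro y
  by_cases hy : y = 0
  · subst hy
    have h0 : (0 : ℝ) ∉ tsupport χ := fun h => lt_irrefl (0 : ℝ) (hs h)
    have h1 : χ =ᶠ[𝓝 ‖(0 : E12)‖] 0 := by
      rw [norm_zero]; exact notMem_tsupport_iff_eventuallyEq.1 h0
    have h2 : (fun y : E12 => χ ‖y‖) =ᶠ[𝓝 0] fun _ => 0 :=
      continuous_norm.continuousAt.tendsto.eventually h1
    exact contDiffAt_const.congr_of_eventuallyEq h2
  · exact (hχ.of_le (by simp)).contDiffAt.comp y (contDiffAt_norm ℝ hy)

theorem ang_polar_cs {χ : ℝ → ℝ} (hc : HasCompactSupport χ) :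
    HasCompactSupport (fun y : E12 => χ ‖y‖) := by
  obtain ⟨R, hR⟩ := hc.isCompact.isBounded.subset_closedBall 0
  refine HasCompactSupport.intro (isCompact_closedBall (0 : E12) R) fun y hy => ?_
  by_contra h
  have := hR (subset_tsupport _ h)
  exact hy (by simpa using this)

theorem ang_polar_fd {χ : ℝ → ℝ} (hχ : ContDiff ℝ ∞ χ) (j : Fin 12) {r : ℝ} (hr : 0 < r)
    (θ : AngS) :
    fderiv ℝ (fun y : E12 => χ ‖y‖) (r • (θ : E12)) (angE j) = deriv χ r * (θ : E12) j := by
  have hθ : ‖(θ : E12)‖ = 1 := by simp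
  have hn : ‖r • (θ : E12)‖ = r := by rw [norm_smul, hθ, Real.norm_of_nonneg hr.le, mul_one]
  have hy : r • (θ : E12) ≠ 0 := by
    rw [← norm_pos_iff, hn]; exact hr
  have h1 : HasDerivAt χ (deriv χ r) ‖r • (θ : E12)‖ := by
    rw [hn]; exact ((hχ.differentiable (by simp)) r).hasDerivAt
  have h := (h1.comp_hasFDerivAt _ (ang_polar_norm hy)).fderiv
  have e : (fun y : E12 => χ ‖y‖) = χ ∘ fun z : E12 => ‖z‖ := rfl
  rw [e, h, hn]
  simp [angE, EuclideanSpace.inner_single_right]
  field_simp
  simp

theorem ang_polar_test {G : E12 → ℂ} (hG : ContDiff ℝ 1 G) (j : Fin 12) {χ : ℝ → ℝ}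
    (hχ : ContDiff ℝ ∞ χ) (hc : HasCompactSupport χ) (hs : tsupport χ ⊆ Ioi 0) :
    ∫ r in Ioi (0 : ℝ), χ r • ((r : ℂ) ^ 11 *
        angPr (fun _ => 1) (fun y => fderiv ℝ G y (angE j)) r) =
      -∫ r in Ioi (0 : ℝ), deriv χ r • ((r : ℂ) ^ 11 * angPr (fun y => y j) G r) := by
  have hu := ang_polar_cd hχ hs
  have hcs := ang_polar_cs hc
  have hG' : Continuous fun y => fderiv ℝ G y (angE j) :=
    (hG.continuous_fderiv one_ne_zero).clm_apply continuous_const
  have hu' : Continuous fun y : E12 => fderiv ℝ (fun y : E12 => χ ‖y‖) y (angE j) :=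
    (hu.continuous_fderiv one_ne_zero).clm_apply continuous_const
  have i1 : Integrable fun y : E12 => fderiv ℝ (fun y : E12 => χ ‖y‖) y (angE j) • G y :=
    (hu'.smul hG.continuous).integrable_of_hasCompactSupport
      ((hcs.fderiv_apply ℝ (angE j)).smul_right)
  have i2 : Integrable fun y : E12 => χ ‖y‖ • fderiv ℝ G y (angE j) :=
    (hu.continuous.smul hG').integrable_of_hasCompactSupport hcs.smul_right
  have i3 : Integrable fun y : E12 => χ ‖y‖ • G y :=
    (hu.continuous.smul hG.continuous).integrable_of_hasCompactSupport hcs.smul_right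
  have h := integral_smul_fderiv_eq_neg_fderiv_smul_of_integrable i1 i2 i3
    (fun x _ => hu.differentiable one_ne_zero x) (fun x _ => hG.differentiable one_ne_zero x)
  rw [ang_polar i1, ang_polar i2] at h
  convert h using 1
  · refine setIntegral_congr_fun measurableSet_Ioi fun r hr => ?_
    have hn : ∀ θ : AngS, ‖r • (θ : E12)‖ = r := fun θ => by
      rw [norm_smul, Real.norm_of_nonneg (le_of_lt hr)]; simp
    simp only [hn, angPr, integral_smul, ofReal_one, mul_one, mul_smul_comm]
  · congr 1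
    refine setIntegral_congr_fun measurableSet_Ioi fun r hr => ?_
    simp only [ang_polar_fd hχ j hr, angPr, ← mul_smul_comm, ← integral_smul]
    congr 2
    funext θ
    simp only [Complex.real_smul]
    push_cast; ring

theorem ang_gauss {G : E12 → ℂ} (hG : ContDiff ℝ 1 G) (j : Fin 12) {r : ℝ} (hr : 0 < r) :
    HasDerivAt (fun s : ℝ => (s : ℂ) ^ 11 * angPr (fun y => y j) G s)
      ((r : ℂ) ^ 11 * angPr (fun _ => 1) (fun y => fderiv ℝ G y (angE j)) r) r := by
  set a : ℝ → ℂ := fun s => (s : ℂ) ^ 11 * angPr (fun y => y j) G s with ha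
  set b : ℝ → ℂ := fun s => (s : ℂ) ^ 11 *
    angPr (fun _ => 1) (fun y => fderiv ℝ G y (angE j)) s with hb
  have hG1 : ContDiff ℝ (1 : ℕ) G := by exact_mod_cast hG
  have ha1 : ContDiff ℝ (1 : ℕ) a :=
    (ofRealCLM.contDiff.pow 11).mul (ang_pr_contDiff (by fun_prop) hG1)
  have ha2 : ContDiff ℝ 1 a := by exact_mod_cast ha1
  have hG' : Continuous fun y => fderiv ℝ G y (angE j) :=
    (hG.continuous_fderiv one_ne_zero).clm_apply continuous_const
  have hb1 : Continuous b :=
    (continuous_ofReal.pow 11).mul (ang_pr_continuous continuous_const hG')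
  have hd : Continuous (deriv a) := ha2.continuous_deriv le_rfl
  have key : ∀ᵐ x : ℝ, x ∈ Ioi (0 : ℝ) → b x - deriv a x = 0 := by
    refine isOpen_Ioi.ae_eq_zero_of_integral_contDiff_smul_eq_zero
      ((hb1.sub hd).locallyIntegrable.locallyIntegrableOn _) fun χ hχ hc hs => ?_
    have h1 := ang_polar_test hG j hχ hc hs
    have z1 : ∀ x, x ∉ Ioi (0 : ℝ) → χ x = 0 := fun x hx =>
      image_eq_zero_of_notMem_tsupport fun h => hx (hs h)
    have z2 : ∀ x, x ∉ Ioi (0 : ℝ) → deriv χ x = 0 := fun x hx =>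
      Function.notMem_support.1 fun h => hx (hs (support_deriv_subset h))
    rw [setIntegral_eq_integral_of_forall_compl_eq_zero (fun x hx => by rw [z1 x hx, zero_smul]),
      setIntegral_eq_integral_of_forall_compl_eq_zero (fun x hx => by rw [z2 x hx, zero_smul])]
      at h1
    have hχ' : Continuous (deriv χ) := hχ.continuous_deriv (by simp)
    have j1 : Integrable fun x => χ x • deriv a x :=
      (hχ.continuous.smul hd).integrable_of_hasCompactSupport hc.smul_right
    have j2 : Integrable fun x => deriv χ x • a x :=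
      (hχ'.smul ha2.continuous).integrable_of_hasCompactSupport hc.deriv.smul_right
    have j3 : Integrable fun x => χ x • a x :=
      (hχ.continuous.smul ha2.continuous).integrable_of_hasCompactSupport hc.smul_right
    have j4 : Integrable fun x => χ x • b x :=
      (hχ.continuous.smul hb1).integrable_of_hasCompactSupport hc.smul_right
    have h2 := integral_bilinear_hasDerivAt_right_eq_neg_left_of_integrable
      (L := ContinuousLinearMap.lsmul ℝ ℝ) (u := χ) (v := a) (u' := deriv χ) (v' := deriv a)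
      (fun x _ => (hχ.differentiable (by simp) x).hasDerivAt)
      (fun x _ => (ha2.differentiable one_ne_zero x).hasDerivAt) j1 j2 j3
    simp only [ContinuousLinearMap.lsmul_apply] at h2
    simp only [smul_sub]
    rw [integral_sub j4 j1, h2]
    exact sub_eq_zero.2 h1
  have e : EqOn (fun x => b x - deriv a x) (fun _ => 0) (Ioi 0) :=
    Measure.eqOn_open_of_ae_eq (μ := volume) ((ae_restrict_iff' measurableSet_Ioi).2 key)
      isOpen_Ioi (hb1.sub hd).continuousOn continuousOn_const
  have e2 : b r = deriv a r := sub_eq_zero.1 (e hr)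
  have := (ha2.differentiable one_ne_zero r).hasDerivAt
  rw [← e2] at this
  exact this

end Vale.Agent.P139
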