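import Vale.Agent.P139.Ang.Chg
import Vale.Agent.P139.Ang.Boot

/-! P139 part Ang, file RS (helper37): the projections solve the radial problem. -/

noncomputable section

open MeasureTheory Filter Topology Set Complex
open scoped ComplexConjugate ContDiff RealInnerProductSpace

namespace Vale.Agent.P139

variable {m : ℕ} (Q : Prof m)

theorem ang_rs_sq {X : ℝ} (hX : 0 < X) : (2 * √X) ^ 2 / 4 = X := by
  rw [mul_pow, Real.sq_sqrt hX.le]; ring

theorem ang_mode_proj {h : E12 → ℝ} (hh : Continuous h) {F G : E12 → ℂ} {c0 c1 : ℂ}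
    {c : Fin 12 → ℂ}
    (hFG : ∀ y, F y = c0 * Q.eP (XX y) + c1 * Q.eT (XX y) + ∑ j, c j * Q.eD j y ∧
      G y = c0 * conj (Q.eP (XX y)) + c1 * conj (Q.eT (XX y)) + ∑ j, c j * conj (Q.eD j y))
    {X : ℝ} (hX : 0 < X) :
    angR h F X = (angI h * c0) * Q.eP X + (angI h * c1) * Q.eT X +
        (∑ j, c j * (angI (fun y => y j * h y) : ℂ)) * Q.eX X ∧
      angR h G X = (angI h * c0) * conj (Q.eP X) + (angI h * c1) * conj (Q.eT X) +
        (∑ j, c j * (angI (fun y => y j * h y) : ℂ)) * conj (Q.eX X) := by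
  have h2 : (2 * √X) / 2 = √X := by ring
  constructor
  · have hF : F = fun y => (fun Y => c0 * Q.eP Y + c1 * Q.eT Y) (XX y) +
        ∑ j, c j * (((y j / 2 : ℝ) : ℂ) * deriv Q.q (XX y)) := by
      funext y; rw [(hFG y).1]; rfl
    rw [angR, hF, ang_pr_mode hh (fun Y => c0 * Q.eP Y + c1 * Q.eT Y) (deriv Q.q), ang_rs_sq hX, h2]
    simp only [Prof.eX]
    ring
  · have hG : G = fun y => (fun Y => c0 * conj (Q.eP Y) + c1 * conj (Q.eT Y)) (XX y) +
        ∑ j, c j * (((y j / 2 : ℝ) : ℂ) * (fun Y => conj (deriv Q.q Y)) (XX y)) := by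
      funext y; rw [(hFG y).2]
      simp only [Prof.eD, map_mul, conj_ofReal]
    rw [angR, hG, ang_pr_mode hh (fun Y => c0 * conj (Q.eP Y) + c1 * conj (Q.eT Y))
      (fun Y => conj (deriv Q.q Y)), ang_rs_sq hX, h2]
    simp only [Prof.eX, map_mul, conj_ofReal]
    ring

theorem ang_rs_inE {l : ℕ} {h : E12 → ℝ} (hh : AngH l h) {F G : E12 → ℂ} (hE : Q.InEE F G) :
    Q.InE l (angR h F) (angR h G) := by
  obtain ⟨c0, c1, c, hc⟩ := hE
  refine ⟨angI h * c0, angI h * c1, ∑ j, c j * (angI (fun y => y j * h y) : ℂ), ?_, ?_, ?_⟩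
  · intro hl
    rw [ang_I_zero hh hl]
    simp
  · intro hl
    refine Finset.sum_eq_zero fun j _ => ?_
    rw [ang_I_coord hh hl j]
    simp
  · intro X hX
    exact ang_mode_proj Q hh.smooth.continuous hc hX

theorem ang_rs_smul (h : E12 → ℝ) (c : ℂ) (F : E12 → ℂ) (X : ℝ) :
    angR h (fun y => c * F y) X = c * angR h F X :=
  ang_pr_radial h (fun _ => c) F _

theorem ang_rs_sb {l : ℕ} {f g : ℝ → ℂ} (hE : Q.InE l f g) (n : ℕ) :
    AngSb n (fun j => j) f ∧ AngSb n (fun j => j) g := by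
  obtain ⟨c0, c1, c2, -, -, hc⟩ := hE
  constructor
  · exact ang_sb_congr (ang_sb_add (ang_sb_add (ang_sb_const_mul c0 (ang_sb_eP Q n))
      (ang_sb_const_mul c1 (ang_sb_eT Q n))) (ang_sb_const_mul c2 (ang_sb_eX Q n)))
      fun X hX => (hc X hX).1
  · exact ang_sb_congr (ang_sb_add (ang_sb_add (ang_sb_const_mul c0 (ang_sb_conj (ang_sb_eP Q n)))
      (ang_sb_const_mul c1 (ang_sb_conj (ang_sb_eT Q n))))
      (ang_sb_const_mul c2 (ang_sb_conj (ang_sb_eX Q n))))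
      fun X hX => (hc X hX).2

theorem ang_rs_half {h : E12 → ℝ} (hh : Continuous h) {F : E12 → ℂ} (hF : ContDiff ℝ 20 F)
    (hb : ∀ j ≤ 20, ∃ C, ∀ y, ‖iteratedFDeriv ℝ j F y‖ ≤ C) :
    AngSb 20 (fun j => j / 2) (angR h F) := by
  have hF' : ContDiff ℝ (20 : ℕ) F := by exact_mod_cast hF
  refine ang_sb_sqrt_comp (φ := angPr h F) (ang_pr_contDiff hh hF') fun j hj => ?_
  obtain ⟨C, hC⟩ := hb j hj
  exact ang_pr_bound hh hF' hj hC

theorem ang_rs_at0 {h : E12 → ℝ} (hh : Continuous h) {F : E12 → ℂ} (hF : ContDiff ℝ 20 F)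
    (hb : ∀ j ≤ 20, ∃ C, ∀ y, ‖iteratedFDeriv ℝ j F y‖ ≤ C) :
    ∃ C, ∀ X : ℝ, 0 < X → ‖angR h F X‖ ≤ C ∧ √X * ‖deriv (angR h F) X‖ ≤ C := by
  have hF' : ContDiff ℝ (20 : ℕ) F := by exact_mod_cast hF
  obtain ⟨C0, h0⟩ := hb 0 (by norm_num)
  obtain ⟨C1, h1⟩ := hb 1 (by norm_num)
  obtain ⟨D0, d0⟩ := ang_pr_bound hh hF' (by norm_num) h0
  obtain ⟨D1, d1⟩ := ang_pr_bound hh hF' (by norm_num) h1
  refine ⟨max D0 D1, fun X hX => ⟨?_, ?_⟩⟩
  · exact le_max_of_le_left (by simpa [angR] using d0 (2 * √X))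
  · refine le_max_of_le_right ?_
    have e := ang_R_deriv hh (hF.of_le (by norm_num)) hX
    have e2 := congrArg norm e
    rw [norm_mul, Complex.norm_real, Real.norm_of_nonneg (Real.sqrt_nonneg X)] at e2
    rw [e2]
    simpa using d1 (2 * √X)

theorem ang_rsol {l : ℕ} {h : E12 → ℝ} (hh : AngH l h) {lam : ℂ} {F G EF EG : E12 → ℂ}
    (hF : ContDiff ℝ 20 F) (hG : ContDiff ℝ 20 G)
    (hb : ∀ j ≤ 20, ∃ C, ∀ y, ‖iteratedFDeriv ℝ j F y‖ ≤ C ∧ ‖iteratedFDeriv ℝ j G y‖ ≤ C)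
    (hE : Q.InEE EF EG)
    (h1 : ∀ y, Laplacian.laplacian F y + I / 2 * fderiv ℝ F y y +
      (Q.β + I * aa m + I * lam) * F y - Q.V1 (XX y) * F y - Q.V2 (XX y) * G y = I * EF y)
    (h2 : ∀ y, Laplacian.laplacian G y - I / 2 * fderiv ℝ G y y +
      (Q.β - I * aa m - I * lam) * G y - Q.V1 (XX y) * G y - conj (Q.V2 (XX y)) * F y =
        -I * EG y) :
    Q.RSol l lam (angR h F) (angR h G) (angR h EF) (angR h EG) := by
  have hc := hh.smooth.continuous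
  have hbF : ∀ j ≤ 20, ∃ C, ∀ y, ‖iteratedFDeriv ℝ j F y‖ ≤ C := fun j hj =>
    (hb j hj).imp fun C hC y => (hC y).1
  have hbG : ∀ j ≤ 20, ∃ C, ∀ y, ‖iteratedFDeriv ℝ j G y‖ ≤ C := fun j hj =>
    (hb j hj).imp fun C hC y => (hC y).2
  have sF := ang_rs_half hc hF hbF
  have sG := ang_rs_half hc hG hbG
  have hI := ang_rs_inE Q hh hE
  have o1 : ∀ X : ℝ, 0 < X → X * deriv (deriv (angR h F)) X + (6 + I * X) * deriv (angR h F) X -
      l * (l + 10) / (4 * X) * angR h F X + (Q.β + I * aa m + I * lam) * angR h F X -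
        Q.V1 X * angR h F X - Q.V2 X * angR h G X = I * angR h EF X := by
    intro X hX
    rw [← ang_rs_smul h I EF]
    exact ang_R_ode hh (hF.of_le (by norm_num)) hG.continuous h1 hX
  have o2 : ∀ X : ℝ, 0 < X → X * deriv (deriv (angR h G)) X + (6 + -I * X) * deriv (angR h G) X -
      l * (l + 10) / (4 * X) * angR h G X + (Q.β - I * aa m - I * lam) * angR h G X -
        Q.V1 X * angR h G X - conj (Q.V2 X) * angR h F X = -I * angR h EG X := by
    intro X hX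
    rw [← ang_rs_smul h (-I) EG]
    refine ang_R_ode (b := fun Y => conj (Q.V2 Y)) hh (hG.of_le (by norm_num)) hF.continuous
      (fun y => ?_) hX
    rw [← h2 y]; ring
  have hboot := ang_boot (L := l * (l + 10)) I_ne_zero (neg_ne_zero.2 I_ne_zero) sF sG
    (ang_sb_V1 Q) (ang_sb_V2 Q) (fun n => ang_sb_const_mul I (ang_rs_sb Q hI n).1)
    (ang_sb_V1 Q) (fun n => ang_sb_conj (ang_sb_V2 Q n))
    (fun n => ang_sb_const_mul (-I) (ang_rs_sb Q hI n).2) o1 o2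
  refine ⟨?_, ?_, o1, ?_, ?_, ?_⟩
  · exact_mod_cast hboot.1.1
  · exact_mod_cast hboot.2.1
  · intro X hX
    rw [← o2 X hX]; ring
  · obtain ⟨C, hC⟩ := ang_rs_at0 hc hF hbF
    obtain ⟨D, hD⟩ := ang_rs_at0 hc hG hbG
    exact ⟨max C D, fun X hX => ⟨le_max_of_le_left (hC X hX.1).1, le_max_of_le_left (hC X hX.1).2,
      le_max_of_le_right (hD X hX.1).1, le_max_of_le_right (hD X hX.1).2⟩⟩
  · intro j hj
    obtain ⟨C, hC⟩ := hboot.1.2 j hj
    obtain ⟨D, hD⟩ := hboot.2.2 j hj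
    refine ⟨max C D, fun X hX => ⟨(hC X hX).trans ?_, (hD X hX).trans ?_⟩⟩
    · exact mul_le_mul_of_nonneg_right (le_max_left _ _) (by positivity)
    · exact mul_le_mul_of_nonneg_right (le_max_right _ _) (by positivity)

end Vale.Agent.P139
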