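import Vale.Agent.P139.Ang.Def

/-! P139 part Ang, file Sym (sub-lead helper37). Definitions in Ang/Def.lean and Def.lean. Helper lemma names start with ang_sym_.

Plan.
Symbol calculus on the open set Ioi 0: ContDiffOn gives ContDiffAt at X > 0 (ContDiffOn.contDiffAt, Ioi_mem_nhds). congr: Filter.EventuallyEq.iteratedDeriv_eq. add: iteratedDeriv_add / iteratedDeriv_fun_add.
mul: iteratedDeriv_mul (Leibniz, ContDiffAt hypotheses) or norm_iteratedFDerivWithin_mul_le; choose constants for the finitely many indices (choose, take absolute values), Real.rpow_add, Real.rpow_le_rpow_of_exponent_le.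
conj: iteratedDeriv commutes with the continuous linear map conjCLE (ContinuousLinearMap.iteratedFDeriv_comp_left, or induction with deriv on the open set). deriv, of_deriv: iteratedDeriv_succ',
contDiffOn_succ_iff_deriv_of_isOpen. rpow: induction, or Real.iter_deriv_rpow_const with ofRealCLM. sqrt_comp: prove by induction on j, for all p : ℝ and all φ that are C^j with bounded derivatives up to order j, that
u X = X^(-p) φ (2 √X) has |iteratedDeriv j u X| <= C X^(-p - j/2): on Ioi 0, deriv u = -p X^(-p-1) φ (2√X) + X^(-p-1/2) φ' (2√X).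
-/

noncomputable section

open MeasureTheory Filter Topology Set Complex
open scoped ComplexConjugate ContDiff RealInnerProductSpace

namespace Vale.Agent.P139

variable {n : ℕ} {w w' : ℕ → ℝ} {u v : ℝ → ℂ}

theorem ang_sym_at (h : AngSb n w u) {j : ℕ} (hj : j ≤ n) {X : ℝ} (hX : 1 ≤ X) :
    ContDiffAt ℝ j u X :=
  (h.1.contDiffAt (Ioi_mem_nhds (one_pos.trans_le hX))).of_le (by exact_mod_cast hj)

theorem ang_sym_mono {a C X p q : ℝ} (h : a ≤ C * X ^ p) (hX : 1 ≤ X) (hpq : p ≤ q) :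
    a ≤ |C| * X ^ q :=
  h.trans (mul_le_mul (le_abs_self C) (Real.rpow_le_rpow_of_exponent_le hX hpq)
    (by positivity) (abs_nonneg C))

theorem ang_sb_congr (h : AngSb n w u) (huv : ∀ X, 0 < X → v X = u X) : AngSb n w v := by
  refine ⟨h.1.congr huv, fun j hj => (h.2 j hj).imp fun C hC X hX => ?_⟩
  rw [Set.EqOn.iteratedDeriv_of_isOpen (s := Ioi 0) huv isOpen_Ioi j (one_pos.trans_le hX)]
  exact hC X hX

theorem ang_sb_mono (h : AngSb n w u) {n' : ℕ} (hn : n' ≤ n) (hw : ∀ j ≤ n', w' j ≤ w j) :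
    AngSb n' w' u := by
  refine ⟨h.1.of_le (by exact_mod_cast hn), fun j hj => ?_⟩
  obtain ⟨C, hC⟩ := h.2 j (hj.trans hn)
  exact ⟨|C|, fun X hX => ang_sym_mono (hC X hX) hX (neg_le_neg (hw j hj))⟩

theorem ang_sb_add (h : AngSb n w u) (h' : AngSb n w v) : AngSb n w (fun X => u X + v X) := by
  refine ⟨h.1.add h'.1, fun j hj => ?_⟩
  obtain ⟨C, hC⟩ := h.2 j hj
  obtain ⟨C', hC'⟩ := h'.2 j hj
  refine ⟨C + C', fun X hX => ?_⟩
  rw [iteratedDeriv_fun_add (ang_sym_at h hj hX) (ang_sym_at h' hj hX), add_mul]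
  exact norm_add_le_of_le (hC X hX) (hC' X hX)

theorem ang_sb_const_mul (c : ℂ) (h : AngSb n w u) : AngSb n w (fun X => c * u X) := by
  refine ⟨contDiffOn_const.mul h.1, fun j hj => ?_⟩
  obtain ⟨C, hC⟩ := h.2 j hj
  refine ⟨‖c‖ * C, fun X hX => ?_⟩
  rw [iteratedDeriv_const_mul c (ang_sym_at h hj hX), norm_mul, mul_assoc]
  exact mul_le_mul_of_nonneg_left (hC X hX) (norm_nonneg c)

theorem ang_sb_mul {w1 w2 : ℕ → ℝ} (h : AngSb n w1 u) (h' : AngSb n w2 v)
    (hw : ∀ j ≤ n, ∀ i ≤ j, w j ≤ w1 i + w2 (j - i)) : AngSb n w (fun X => u X * v X) := by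
  refine ⟨h.1.mul h'.1, fun j hj => ?_⟩
  choose! C hC using h.2
  choose! C' hC' using h'.2
  refine ⟨∑ i ∈ Finset.range (j + 1), |j.choose i * (|C i| * |C' (j - i)|)|, fun X hX => ?_⟩
  rw [iteratedDeriv_fun_mul (ang_sym_at h hj hX) (ang_sym_at h' hj hX), Finset.sum_mul]
  refine norm_sum_le_of_le _ fun i hi => ?_
  have hi' := Finset.mem_range_succ_iff.1 hi
  refine ang_sym_mono (p := -w1 i + -w2 (j - i)) ?_ hX (by linarith [hw j hj i hi'])
  rw [mul_assoc, norm_mul, norm_mul, norm_natCast, Real.rpow_add (one_pos.trans_le hX), mul_assoc,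
    mul_mul_mul_comm]
  exact mul_le_mul_of_nonneg_left (mul_le_mul (ang_sym_mono (hC i (hi'.trans hj) X hX) hX le_rfl)
    (ang_sym_mono (hC' (j - i) ((Nat.sub_le _ _).trans hj) X hX) hX le_rfl) (norm_nonneg _)
    (by positivity)) (Nat.cast_nonneg _)

theorem ang_sb_conj (h : AngSb n w u) : AngSb n w (fun X => conj (u X)) := by
  refine ⟨conjCLE.contDiff.comp_contDiffOn h.1, fun j hj => (h.2 j hj).imp fun C hC X hX => ?_⟩
  have e := conjLIE.norm_iteratedFDeriv_comp_left u X j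
  rw [norm_iteratedFDeriv_eq_norm_iteratedDeriv, norm_iteratedFDeriv_eq_norm_iteratedDeriv] at e
  exact e.trans_le (hC X hX)

theorem ang_sb_deriv (h : AngSb (n + 1) w u) : AngSb n (fun j => w (j + 1)) (deriv u) := by
  refine ⟨h.1.deriv_of_isOpen isOpen_Ioi (by simp), fun j hj => ?_⟩
  rw [← iteratedDeriv_succ']
  exact h.2 (j + 1) (Nat.succ_le_succ hj)

theorem ang_sb_of_deriv (hd : DifferentiableOn ℝ u (Ioi 0))
    (h0 : ∃ C : ℝ, ∀ X : ℝ, 1 ≤ X → ‖u X‖ ≤ C * X ^ (-w 0))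
    (h : AngSb n (fun j => w (j + 1)) (deriv u)) : AngSb (n + 1) w u := by
  refine ⟨?_, fun j hj => ?_⟩
  · rw [Nat.cast_succ, contDiffOn_succ_iff_deriv_of_isOpen isOpen_Ioi]
    exact ⟨hd, by simp, h.1⟩
  · rcases j with _ | j
    · rwa [iteratedDeriv_zero]
    · rw [iteratedDeriv_succ']
      exact h.2 j (Nat.le_of_succ_le_succ hj)

theorem ang_sb_rpow (n : ℕ) (p : ℝ) :
    AngSb n (fun j => j - p) (fun X => ((X ^ p : ℝ) : ℂ)) := by
  have h0 : ∀ (p X : ℝ), 1 ≤ X → ‖((X ^ p : ℝ) : ℂ)‖ ≤ 1 * X ^ (-(((0 : ℕ) : ℝ) - p)) :=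
    fun p X hX => by
      rw [norm_real, Real.norm_of_nonneg (by positivity), one_mul, Nat.cast_zero, zero_sub, neg_neg]
  have hd : ∀ (p X : ℝ), 0 < X → HasDerivAt (fun X : ℝ => ((X ^ p : ℝ) : ℂ))
      (p * ((X ^ (p - 1) : ℝ) : ℂ)) X := fun p X hX =>
    (Real.hasDerivAt_rpow_const (Or.inl hX.ne')).ofReal_comp.congr_deriv (ofReal_mul _ _)
  induction n generalizing p with
  | zero =>
    refine ⟨contDiffOn_zero.2 fun X hX => (hd p X hX).continuousAt.continuousWithinAt,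
      fun j hj => ⟨1, ?_⟩⟩
    rw [Nat.le_zero.1 hj, iteratedDeriv_zero]
    exact h0 p
  | succ n ih =>
    refine ang_sb_of_deriv (fun X hX => (hd p X hX).differentiableAt.differentiableWithinAt)
      ⟨1, h0 p⟩ (ang_sb_congr (ang_sb_mono (ang_sb_const_mul p (ih (p - 1))) le_rfl
        fun j _ => le_of_eq ?_) fun X hX => (hd p X hX).deriv)
    push_cast
    ring

theorem ang_sb_sqrt_comp {φ : ℝ → ℂ} (hφ : ContDiff ℝ n φ)
    (hb : ∀ j ≤ n, ∃ C : ℝ, ∀ r, ‖iteratedDeriv j φ r‖ ≤ C) :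
    AngSb n (fun j => j / 2) (fun X => φ (2 * √X)) := by
  have h0 : ∀ φ : ℝ → ℂ, (∃ C : ℝ, ∀ r, ‖iteratedDeriv 0 φ r‖ ≤ C) → ∃ C : ℝ, ∀ X : ℝ, 1 ≤ X →
      ‖φ (2 * √X)‖ ≤ C * X ^ (-(((0 : ℕ) : ℝ) / 2)) := fun φ h => h.imp fun C hC X _ => by
    rw [Nat.cast_zero, zero_div, neg_zero, Real.rpow_zero, mul_one]
    exact hC _
  induction n generalizing φ with
  | zero =>
    refine ⟨contDiffOn_zero.2 (hφ.continuous.comp (by fun_prop)).continuousOn, fun j hj => ?_⟩
    rw [Nat.le_zero.1 hj, iteratedDeriv_zero]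
    exact h0 φ (hb 0 le_rfl)
  | succ n ih =>
    rw [Nat.cast_succ, contDiff_succ_iff_deriv] at hφ
    have hd : ∀ X : ℝ, 0 < X → HasDerivAt (fun X => φ (2 * √X))
        (deriv φ (2 * √X) * ((X ^ (-1 / 2 : ℝ) : ℝ) : ℂ)) X := fun X hX => by
      refine ((hφ.1 _).hasDerivAt.scomp X
        ((Real.hasDerivAt_sqrt hX.ne').const_mul 2)).congr_deriv ?_
      rw [real_smul, mul_comm, neg_div, Real.rpow_neg hX.le, ← Real.sqrt_eq_rpow, mul_one_div,
        ← div_div, div_self two_ne_zero, one_div]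
    refine ang_sb_of_deriv (fun X hX => (hd X hX).differentiableAt.differentiableWithinAt)
      (h0 φ (hb 0 (Nat.zero_le _))) (ang_sb_congr (ang_sb_mul (ih hφ.2.2 fun j hj => ?_)
        (ang_sb_rpow n (-1 / 2)) fun j _ i hi => ?_) fun X hX => (hd X hX).deriv)
    · rw [← iteratedDeriv_succ']
      exact hb (j + 1) (Nat.succ_le_succ hj)
    · have h1 : (i : ℝ) ≤ j := by exact_mod_cast hi
      rw [Nat.cast_sub hi]
      push_cast
      linarith

end Vale.Agent.P139
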